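import Vale.Agent.P279.Series

/-! The one variable root counts. -/

namespace Vale.Agent.P279

open Polynomial

lemma width_le {p q : ℂ[X]} (hp : p ≠ 0) (hq : q.eval 0 ≠ 0) (h : q ∣ p) :
    p.natTrailingDegree + q.natDegree ≤ p.natDegree := by
  have h1 : X ^ p.natTrailingDegree ∣ p :=
    X_pow_dvd_iff.mpr fun d hd => coeff_eq_zero_of_lt_natTrailingDegree hd
  have h2 : IsCoprime (X : ℂ[X]) q := by
    refine (irreducible_X.coprime_iff_not_dvd).mpr ?_
    rw [X_dvd_iff, coeff_zero_eq_eval_zero]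
    exact hq
  have h3 := (h2.pow_left (m := p.natTrailingDegree)).mul_dvd h1 h
  have hq0 : q ≠ 0 := by rintro rfl; simp at hq
  have h4 := natDegree_le_of_dvd h3 hp
  rwa [natDegree_mul (pow_ne_zero _ X_ne_zero) hq0, natDegree_X_pow] at h4

/-- If the Taylor coefficients at one of order less than `κ` vanish but the one of order `κ` does
not, then the support has width at least `κ`. -/
lemma exists_wide (d κ : ℕ) (a : ℕ → ℂ)
    (hlt : ∀ κ' < κ, ∑ j ∈ Finset.range (d + 1), (j.choose κ' : ℂ) * a j = 0)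
    (hne : ∑ j ∈ Finset.range (d + 1), (j.choose κ : ℂ) * a j ≠ 0) :
    ∃ j₁ j₂, j₁ + κ ≤ j₂ ∧ j₂ ≤ d ∧ a j₁ ≠ 0 ∧ a j₂ ≠ 0 := by
  classical
  set h : ℂ[X] := ∑ j ∈ Finset.range (d + 1), monomial j (a j) with hh
  have hcoeff : ∀ j, h.coeff j = if j ≤ d then a j else 0 := by
    intro j
    rw [hh, finsetSum_coeff]
    simp only [coeff_monomial]
    rw [Finset.sum_ite_eq']
    simp
  have hcomp : ∀ k, (h.comp (X + C 1)).coeff k =
      ∑ j ∈ Finset.range (d + 1), (j.choose k : ℂ) * a j := by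
    intro k
    rw [hh, Polynomial.sum_comp, finsetSum_coeff]
    refine Finset.sum_congr rfl fun j _ => ?_
    rw [monomial_comp, coeff_C_mul, map_one, coeff_X_add_one_pow, mul_comm]
  have h0 : h ≠ 0 := by
    intro h0
    apply hne
    rw [← hcomp, h0]; simp
  have hdvd : (X - C 1) ^ κ ∣ h := by
    rw [X_sub_C_pow_dvd_iff, X_pow_dvd_iff]
    intro k hk
    rw [hcomp, hlt k hk]
  have hw := width_le h0 (by simp) hdvd
  rw [natDegree_pow, natDegree_X_sub_C, mul_one] at hw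
  have h1 := mem_support_iff.mp (natTrailingDegree_mem_support_of_nonzero h0)
  have h2 := mem_support_iff.mp (natDegree_mem_support_of_nonzero h0)
  rw [hcoeff] at h1 h2
  refine ⟨_, _, hw, ?_, ?_, ?_⟩
  · by_contra h3; simp [h3] at h2
  · intro h3; simp [h3] at h1
  · intro h3; simp [h3] at h2

/-- The unit `ζ + X` of the power series ring. -/
noncomputable def unitAt (ζ : ℂ) (hζ : ζ ≠ 0) : (PowerSeries ℂ)ˣ :=
  (PowerSeries.isUnit_iff_constantCoeff.mpr (by simpa using hζ) :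
    IsUnit (PowerSeries.X + PowerSeries.C ζ : PowerSeries ℂ)).unit

/-- Expansion of a Laurent polynomial at `ζ`. -/
noncomputable def expand (ζ : ℂ) (hζ : ζ ≠ 0) : LP →+* PowerSeries ℂ :=
  LaurentPolynomial.eval₂ PowerSeries.C (unitAt ζ hζ)

lemma expand_toLaurent (ζ : ℂ) (hζ : ζ ≠ 0) (p : ℂ[X]) :
    expand ζ hζ (toLaurent p) = (p.comp (X + C ζ) : ℂ[X]) := by
  rw [expand, LaurentPolynomial.eval₂_toLaurent, ← coeToPowerSeries.ringHom_apply, comp,
    hom_eval₂]
  congr 1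
  · ext a : 1; simp
  · simp [unitAt]

lemma expand_comp_C (ζ : ℂ) (hζ : ζ ≠ 0) :
    (expand ζ hζ).comp LaurentPolynomial.C = PowerSeries.C := by
  ext a : 1; simp [expand]

lemma isUnit_expand (ζ : ℂ) (hζ : ζ ≠ 0) {f : LP} {p : ℂ[X]} {n : ℤ}
    (h : toLaurent p = f * LaurentPolynomial.T n) (hp : p.eval ζ ≠ 0) :
    IsUnit (expand ζ hζ f) := by
  have h1 : IsUnit (expand ζ hζ (toLaurent p)) := by
    rw [expand_toLaurent, PowerSeries.isUnit_iff_constantCoeff, constantCoeff_coe,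
      coeff_zero_eq_eval_zero, eval_comp]
    simpa using hp
  rw [h, map_mul] at h1
  exact isUnit_of_mul_isUnit_left h1

/-- A nonzero Laurent polynomial vanishing to order `M` at `r` distinct nonzero points has a
support of width at least `r M`. -/
lemma laurent_wide {r M : ℕ} (ζ : Fin r → ℂ) (hζ : ∀ i, ζ i ≠ 0) (hinj : Function.Injective ζ)
    {f : LP} (hf : f ≠ 0) (h : ∀ i, PowerSeries.X ^ M ∣ expand (ζ i) (hζ i) f) :
    ∃ l₁ l₂ : ℤ, l₁ + r * M ≤ l₂ ∧ f.coeff l₁ ≠ 0 ∧ f.coeff l₂ ≠ 0 := by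
  classical
  obtain ⟨n, p, hp⟩ := LaurentPolynomial.exists_T_pow f
  have hp0 : p ≠ 0 := by
    rintro rfl
    rw [map_zero, eq_comm, mul_eq_zero] at hp
    rcases hp with h1 | h1
    · exact hf h1
    · exact (LaurentPolynomial.isUnit_T _).ne_zero h1
  have hd : ∀ i, (X - C (ζ i)) ^ M ∣ p := by
    intro i
    rw [X_sub_C_pow_dvd_iff, X_pow_dvd_iff]
    have h1 : PowerSeries.X ^ M ∣ expand (ζ i) (hζ i) (toLaurent p) := by
      rw [hp, map_mul]; exact (h i).mul_right _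
    rw [expand_toLaurent, PowerSeries.X_pow_dvd_iff] at h1
    intro k hk
    rw [← coeff_coe]; exact h1 k hk
  have hdvd : ∏ i, (X - C (ζ i)) ^ M ∣ p := by
    refine Finset.prod_dvd_of_coprime ?_ fun i _ => hd i
    intro i _ j _ hij
    exact (pairwise_coprime_X_sub_C hinj hij).pow
  have hw := width_le hp0 (by
    rw [eval_prod, Finset.prod_ne_zero_iff]
    intro i _
    simp [hζ i]) hdvd
  rw [natDegree_prod _ _ (fun i _ => pow_ne_zero _ (X_sub_C_ne_zero _))] at hw
  simp only [natDegree_pow, natDegree_X_sub_C, mul_one, Finset.sum_const, Finset.card_univ,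
    Fintype.card_fin, smul_eq_mul] at hw
  have hc : ∀ k : ℕ, f.coeff ((k : ℤ) - n) = p.coeff k := by
    intro k
    have h1 : (toLaurent p).coeff (k : ℤ) = p.coeff k := by
      rw [LaurentPolynomial.coeff_toLaurent]
      exact Finsupp.mapDomain_apply (Nat.castEmbedding (R := ℤ)).injective _ k
    rw [← h1, hp, LaurentPolynomial.T, AddMonoidAlgebra.coeff_mul_single_apply, mul_one,
      sub_eq_add_neg]
  refine ⟨(p.natTrailingDegree : ℤ) - n, (p.natDegree : ℤ) - n, ?_, ?_, ?_⟩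
  · have : ((p.natTrailingDegree + r * M : ℕ) : ℤ) ≤ p.natDegree := by exact_mod_cast hw
    push_cast at this
    linarith
  · rw [hc]; exact mem_support_iff.mp (natTrailingDegree_mem_support_of_nonzero hp0)
  · rw [hc]; exact mem_support_iff.mp (natDegree_mem_support_of_nonzero hp0)

/-- The arithmetic of the sheared triangle. -/
lemma triangle_bound {d ρ κ l j₁ j₂ : ℤ} (hd : 0 < d) (hρ : 3 * d < ρ) (hκ : 0 ≤ κ)
    (hj : j₁ + κ ≤ j₂) (hj₁ : 0 ≤ j₁)
    (h1 : (ρ - 3 * d) * (d - 3 * j₁) ≤ d * l)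
    (h2 : d * l < ρ * (d - 3 * j₂) ∨ (3 * j₂ = d ∧ l = 0)) :
    κ * ρ * (ρ - 3 * d) ≤ d ^ 2 * l ∧ d * l < ρ * (d - 3 * κ) := by
  rcases h2 with h2 | ⟨h2, h3⟩
  · constructor
    · have h4 : (ρ - 3 * d) * (d - 3 * j₂ + 3 * κ) ≤ d * l := by nlinarith
      have h5 : ρ * ((ρ - 3 * d) * (d - 3 * j₂ + 3 * κ)) ≤ ρ * (d * l) :=
        mul_le_mul_of_nonneg_left h4 (by omega)
      have h6 : (ρ - 3 * d) * (d * l) ≤ (ρ - 3 * d) * (ρ * (d - 3 * j₂)) :=
        mul_le_mul_of_nonneg_left h2.le (by omega)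
      nlinarith
    · have : ρ * (d - 3 * j₂) ≤ ρ * (d - 3 * κ) :=
        mul_le_mul_of_nonneg_left (by omega) (by omega)
      omega
  · subst h3
    have h4 : d - 3 * j₁ ≤ 0 := by
      by_contra h
      have : 0 < (ρ - 3 * d) * (d - 3 * j₁) := mul_pos (by omega) (by omega)
      omega
    have h5 : κ = 0 := by omega
    subst h5
    constructor
    · simp
    · have : 0 < ρ * d := mul_pos (by omega) hd
      simpa using this

end Vale.Agent.P279
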