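import Vale.Agent.P279.Theta

/-! Expansion of forms in powers of the cubic, and the degeneration to its normal cone. -/

namespace Vale.Agent.P279

open MvPolynomial

/-- The exponent vector of the product of the three variables. -/
noncomputable def xyz : Fin 3 →₀ ℕ := Finsupp.equivFunOnFinite.symm (fun _ => 1)

@[simp] lemma xyz_apply (i : Fin 3) : xyz i = 1 := rfl

lemma xyz_degree : xyz.degree = 3 := by
  rw [Finsupp.degree_eq_sum]; simp

lemma xyz_le_iff (α : Fin 3 →₀ ℕ) : xyz ≤ α ↔ ∀ j, α j ≠ 0 := by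
  rw [Finsupp.le_def]
  refine forall_congr' fun j => ?_
  rw [xyz_apply]; omega

lemma isHomogeneous_of_coeff {A : Type} [CommRing A] {S : MvPolynomial (Fin 3) A} {e : ℕ}
    (h : ∀ α : Fin 3 →₀ ℕ, α.degree ≠ e → coeff α S = 0) : S.IsHomogeneous e := by
  intro α hα
  by_contra hne
  apply hα
  apply h
  rwa [Finsupp.degree_eq_weight_one]

variable {K : Type} [Field K]

lemma decomp_step {c : MvPolynomial (Fin 3) K} (hc0 : c ≠ 0) (hc : c.IsHomogeneous 3)
    {D : Type} [CommRing D] (φ : MvPolynomial (Fin 3) K →+* D) (hφ : φ c = 0)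
    (hinj : ∀ (e : ℕ) (W : MvPolynomial (Fin 3) K), W.IsHomogeneous e → Std W → φ W = 0 → W = 0)
    (e : ℕ) (S : MvPolynomial (Fin 3) K) (hS : S.IsHomogeneous (e + 3)) :
    ∃ Q W : MvPolynomial (Fin 3) K, S = c * Q + W ∧ Q.IsHomogeneous e ∧
      W.IsHomogeneous (e + 3) ∧ Std W := by
  classical
  have hdiv : ∀ T : MvPolynomial (Fin 3) K, T.IsHomogeneous (e + 3) →
      (T.divMonomial xyz).IsHomogeneous e := by
    intro T hT
    refine isHomogeneous_of_coeff fun α hα => ?_
    rw [coeff_divMonomial]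
    refine hT.coeff_eq_zero ?_
    rw [map_add, xyz_degree]; omega
  have hmod : ∀ T : MvPolynomial (Fin 3) K, T.IsHomogeneous (e + 3) →
      (T.modMonomial xyz).IsHomogeneous (e + 3) := by
    intro T hT
    refine isHomogeneous_of_coeff fun α hα => ?_
    by_cases h : xyz ≤ α
    · exact coeff_modMonomial_of_le _ h
    · rw [coeff_modMonomial_of_not_le _ h]; exact hT.coeff_eq_zero hα
  have hstd : ∀ T : MvPolynomial (Fin 3) K, Std (T.modMonomial xyz) :=
    fun T α hα => coeff_modMonomial_of_le _ ((xyz_le_iff α).mpr hα)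
  let dv : MvPolynomial (Fin 3) K →ₗ[K] MvPolynomial (Fin 3) K :=
    { toFun := fun T => T.divMonomial xyz
      map_add' := fun a b => add_divMonomial a b xyz
      map_smul' := fun a b => by ext α; simp [coeff_divMonomial] }
  let Λ₀ : MvPolynomial (Fin 3) K →ₗ[K] MvPolynomial (Fin 3) K :=
    (LinearMap.mulLeft K (c - monomial xyz 1)).comp dv + LinearMap.id
  have hΛ₀ : ∀ T, Λ₀ T = c * T.divMonomial xyz + T.modMonomial xyz := by
    intro T
    have := divMonomial_add_modMonomial T xyz
    simp only [Λ₀, dv, LinearMap.add_apply, LinearMap.comp_apply, LinearMap.mulLeft_apply,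
      LinearMap.id_apply, LinearMap.coe_mk, AddHom.coe_mk]
    linear_combination (-1 : MvPolynomial (Fin 3) K) * this
  let H := homogeneousSubmodule (Fin 3) K (e + 3)
  have : Module.Finite K H := Module.Finite.iff_fg.mpr (homogeneousSubmodule_fg _ _ _)
  let Λ : H →ₗ[K] H := Λ₀.restrict (by
    intro T hT
    rw [mem_homogeneousSubmodule] at hT ⊢
    rw [hΛ₀]
    refine IsHomogeneous.add ?_ (hmod T hT)
    have := hc.mul (hdiv T hT)
    rwa [add_comm] at this)
  have hinjΛ : Function.Injective Λ := by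
    rw [injective_iff_map_eq_zero]
    intro T hT
    have h1 : c * T.1.divMonomial xyz + T.1.modMonomial xyz = 0 := by
      rw [← hΛ₀]; exact congrArg Subtype.val hT
    have h2 : T.1.modMonomial xyz = 0 := by
      refine hinj _ _ (hmod _ T.2) (hstd _) ?_
      have := congrArg φ h1
      rwa [map_add, map_mul, hφ, zero_mul, zero_add, map_zero] at this
    rw [h2, add_zero, mul_eq_zero] at h1
    have h3 := h1.resolve_left hc0
    apply Subtype.ext
    rw [← divMonomial_add_modMonomial T.1 xyz, h2, h3]; simp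
  obtain ⟨T, hT⟩ := LinearMap.injective_iff_surjective.mp hinjΛ ⟨S, hS⟩
  refine ⟨T.1.divMonomial xyz, T.1.modMonomial xyz, ?_, hdiv _ T.2, hmod _ T.2, hstd _⟩
  rw [← hΛ₀]
  exact (congrArg Subtype.val hT).symm

/-- The properties of the `j`-th coefficient in the expansion of a form of degree `e`. -/
def Piece (e j : ℕ) (W : MvPolynomial (Fin 3) K) : Prop :=
  Std W ∧ W.IsHomogeneous (e - 3 * j) ∧ (e < 3 * j → W = 0)

lemma Piece.zero (e j : ℕ) : Piece e j (0 : MvPolynomial (Fin 3) K) :=
  ⟨fun _ _ => coeff_zero _, isHomogeneous_zero _ _ _, fun _ => rfl⟩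

lemma decomp {c : MvPolynomial (Fin 3) K}
    (hstep : ∀ (e : ℕ) (S : MvPolynomial (Fin 3) K), S.IsHomogeneous (e + 3) →
      ∃ Q W : MvPolynomial (Fin 3) K, S = c * Q + W ∧ Q.IsHomogeneous e ∧
        W.IsHomogeneous (e + 3) ∧ Std W) (e : ℕ) :
    ∀ S : MvPolynomial (Fin 3) K, S.IsHomogeneous e → ∃ W : ℕ → MvPolynomial (Fin 3) K,
      (∀ j, Piece e j (W j)) ∧ ∀ M, e ≤ M → S = ∑ j ∈ Finset.range (M + 1), c ^ j * W j := by
  induction e using Nat.strong_induction_on with
  | _ e ih =>
    intro S hS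
    by_cases he : e < 3
    · refine ⟨fun j => if j = 0 then S else 0, ?_, ?_⟩
      · intro j
        by_cases hj : j = 0
        · subst hj
          refine ⟨?_, by simpa using hS, by simp⟩
          intro α hα
          simp only [if_true]
          refine hS.coeff_eq_zero ?_
          rw [Finsupp.degree_eq_sum, Fin.sum_univ_three]
          have := hα 0; have := hα 1; have := hα 2
          omega
        · simp only [if_neg hj]; exact Piece.zero _ _
      · intro M _
        rw [Finset.sum_range_succ']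
        simp
    · obtain ⟨e', rfl⟩ : ∃ e', e = e' + 3 := ⟨e - 3, by omega⟩
      obtain ⟨Q, W₀, h1, hQ, hW, hstd⟩ := hstep e' S hS
      obtain ⟨W, hP, hsum⟩ := ih e' (by omega) Q hQ
      refine ⟨fun j => Nat.casesOn j W₀ W, ?_, ?_⟩
      · intro j
        cases j with
        | zero => exact ⟨hstd, by simpa using hW, by simp⟩
        | succ j =>
          refine ⟨(hP j).1, ?_, fun h => (hP j).2.2 (by omega)⟩
          have : e' + 3 - 3 * (j + 1) = e' - 3 * j := by omega
          rw [this]; exact (hP j).2.1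
      · intro M hM
        obtain ⟨M', rfl⟩ : ∃ M', M = M' + 1 := ⟨M - 1, by omega⟩
        rw [Finset.sum_range_succ', h1, hsum M' (by omega), Finset.mul_sum]
        have h2 : ∀ j, c * (c ^ j * W j) = c ^ (j + 1) * W j := fun j => by ring
        simp only [pow_zero, one_mul, h2]
        rfl

lemma taylor_one {D : Type} [CommRing D] (ψ : K →+* D) (x y : Fin 3 → D)
    (S : MvPolynomial (Fin 3) K) :
    (eval₂ (Polynomial.C.comp ψ)
        (fun k => Polynomial.C (x k) + Polynomial.X * Polynomial.C (y k)) S).coeff 0 =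
      eval₂ ψ x S ∧
    (eval₂ (Polynomial.C.comp ψ)
        (fun k => Polynomial.C (x k) + Polynomial.X * Polynomial.C (y k)) S).coeff 1 =
      ∑ k, eval₂ ψ x (pderiv k S) * y k := by
  classical
  induction S using MvPolynomial.induction_on with
  | C a => simp [Polynomial.coeff_C]
  | add p q hp hq =>
    simp only [eval₂_add, Polynomial.coeff_add, hp.1, hp.2, hq.1, hq.2, map_add, add_mul,
      Finset.sum_add_distrib, and_self]
  | mul_X p j hp =>
    rw [eval₂_mul, eval₂_mul, eval₂_X, eval₂_X]
    constructor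
    · rw [Polynomial.mul_coeff_zero, hp.1]; simp
    · rw [mul_add, ← mul_assoc, Polynomial.coeff_add, Polynomial.coeff_mul_C,
        Polynomial.coeff_mul_C, Polynomial.coeff_mul_X, hp.1, hp.2, Finset.sum_mul]
      simp only [Derivation.leibniz, smul_eq_mul, eval₂_add, eval₂_mul, eval₂_X, add_mul,
        Finset.sum_add_distrib]
      rw [add_comm]
      congr 1
      · rw [Finset.sum_eq_single j]
        · simp
        · intro k _ hk
          rw [pderiv_X_of_ne (Ne.symm hk)]; simp
        · simp
      · refine Finset.sum_congr rfl fun k _ => ?_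
        ring

theorem s_step {c : MvPolynomial (Fin 3) K} (hc : c.IsHomogeneous 3) {d : ℕ}
    (hdec : ∀ S : MvPolynomial (Fin 3) K, S.IsHomogeneous d →
      ∃ W : ℕ → MvPolynomial (Fin 3) K,
        (∀ j, Piece d j (W j)) ∧ S = ∑ j ∈ Finset.range (d + 1), c ^ j * W j)
    (F : MvPolynomial (Fin 3) (Polynomial K)) (hF : F.IsHomogeneous d) (hF0 : F ≠ 0) :
    ∃ (μ : ℕ) (V : ℕ → MvPolynomial (Fin 3) K), (∀ j, Piece d j (V j)) ∧ (∃ j, V j ≠ 0) ∧
      ∀ (D : Type) [CommRing D] (ψ : K →+* D) (x : Fin 3 → D) (u : D) (k₀ : Fin 3),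
        eval₂ ψ x c = 0 →
        (eval₂ (Polynomial.mapRingHom ψ)
          (fun k => Polynomial.C (eval₂ ψ x (pderiv k₀ c) * x k) +
            Polynomial.X * Polynomial.C (if k = k₀ then u else 0)) F).coeff μ =
          eval₂ ψ x (pderiv k₀ c) ^ d *
            ∑ j ∈ Finset.range (d + 1), u ^ j * eval₂ ψ x (V j) := by
  classical
  let Fk : ℕ → MvPolynomial (Fin 3) K :=
    fun k => ∑ α : Mon d, monomial α.1 ((coeff α.1 F).coeff k)
  choose W hW hWsum using fun k => hdec (Fk k) (isHomogeneous_sum_mon _)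
  obtain ⟨N, hN⟩ : ∃ N, ∀ α : Mon d, (coeff α.1 F).natDegree < N :=
    ⟨(Finset.univ.sup fun α : Mon d => (coeff α.1 F).natDegree) + 1, fun α =>
      Nat.lt_succ_of_le (Finset.le_sup (f := fun α : Mon d => (coeff α.1 F).natDegree)
        (Finset.mem_univ α))⟩
  have hFsum : F = ∑ k ∈ Finset.range N, C (Polynomial.X ^ k) * map Polynomial.C (Fk k) := by
    conv_lhs => rw [eq_sum_mon hF]
    simp only [Fk, map_sum, Finset.mul_sum, map_monomial, C_mul_monomial]
    rw [Finset.sum_comm]
    refine Finset.sum_congr rfl fun α _ => ?_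
    rw [← map_sum]
    congr 1
    conv_lhs => rw [(coeff α.1 F).as_sum_range_C_mul_X_pow' (hN α)]
    exact Finset.sum_congr rfl fun k _ => mul_comm _ _
  let T := (Finset.range N ×ˢ Finset.range (d + 1)).filter fun x => W x.1 x.2 ≠ 0
  have hT : T.Nonempty := by
    by_contra hT
    apply hF0
    rw [hFsum]
    refine Finset.sum_eq_zero fun k hk => ?_
    rw [hWsum k, Finset.sum_eq_zero, map_zero, mul_zero]
    intro j hj
    have : W k j = 0 := by
      by_contra h
      exact hT ⟨(k, j), Finset.mem_filter.mpr ⟨Finset.mem_product.mpr ⟨hk, hj⟩, h⟩⟩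
    rw [this, mul_zero]
  obtain ⟨x₀, hx₀, hmin⟩ := Finset.exists_min_image T (fun x => x.1 + x.2) hT
  set μ := x₀.1 + x₀.2 with hμ
  refine ⟨μ, fun j => if j ≤ μ ∧ μ - j < N then W (μ - j) j else 0, ?_, ⟨x₀.2, ?_⟩, ?_⟩
  · intro j
    by_cases h : j ≤ μ ∧ μ - j < N
    · simp only [if_pos h]; exact hW _ _
    · simp only [if_neg h]; exact Piece.zero _ _
  · have h1 := Finset.mem_filter.mp hx₀
    have h2 := Finset.mem_range.mp (Finset.mem_product.mp h1.1).1
    have h3 : μ - x₀.2 = x₀.1 := by omega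
    simp only [h3]
    rw [if_pos ⟨by omega, h2⟩]
    exact h1.2
  · intro D _ ψ x u k₀ hx
    set g := eval₂ ψ x (pderiv k₀ c) with hg
    set Φ : Fin 3 → Polynomial D := fun k => Polynomial.C (g * x k) +
      Polynomial.X * Polynomial.C (if k = k₀ then u else 0) with hΦ
    let Ψ : MvPolynomial (Fin 3) K →+* Polynomial D := eval₂Hom (Polynomial.C.comp ψ) Φ
    have hΨ0 : ∀ (e : ℕ) (S : MvPolynomial (Fin 3) K), S.IsHomogeneous e →
        (Ψ S).coeff 0 = g ^ e * eval₂ ψ x S := by
      intro e S hS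
      rw [← eval₂_smul_of_isHomogeneous ψ hS]
      exact (taylor_one ψ (fun k => g * x k) (fun k => if k = k₀ then u else 0) S).1
    have hc1 : (Ψ c).coeff 1 = u * g ^ 3 := by
      have := (taylor_one ψ (fun k => g * x k) (fun k => if k = k₀ then u else 0) c).2
      refine this.trans ?_
      rw [Finset.sum_eq_single k₀]
      · rw [if_pos rfl, eval₂_smul_of_isHomogeneous ψ (hc.pderiv (i := k₀)), ← hg]
        ring
      · intro k _ hk; rw [if_neg hk, mul_zero]
      · simp
    have hcX : Ψ c = Polynomial.X * (Ψ c).divX := by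
      have := Polynomial.X_mul_divX_add (Ψ c)
      rw [hΨ0 3 c hc, hx, mul_zero, map_zero, add_zero] at this
      exact this.symm
    have hmain : eval₂ (Polynomial.mapRingHom ψ) Φ F =
        ∑ k ∈ Finset.range N, ∑ j ∈ Finset.range (d + 1),
          Polynomial.X ^ (k + j) * ((Ψ c).divX ^ j * Ψ (W k j)) := by
      conv_lhs => rw [hFsum]
      rw [eval₂_sum]
      refine Finset.sum_congr rfl fun k _ => ?_
      rw [eval₂_mul, eval₂_C, eval₂_map]
      have h1 : (Polynomial.mapRingHom ψ).comp Polynomial.C = Polynomial.C.comp ψ := by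
        ext a : 1; simp
      rw [h1]
      change _ * Ψ (Fk k) = _
      rw [hWsum k, map_sum, Finset.mul_sum]
      refine Finset.sum_congr rfl fun j _ => ?_
      rw [map_mul, map_pow, map_pow]
      conv_lhs => rw [hcX]
      simp only [Polynomial.coe_mapRingHom, Polynomial.map_X]
      ring
    rw [hmain, Finset.sum_comm, Polynomial.finsetSum_coeff, Finset.mul_sum]
    refine Finset.sum_congr rfl fun j hj => ?_
    rw [Polynomial.finsetSum_coeff]
    have hterm : ∀ k ∈ Finset.range N, k + j ≠ μ →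
        (Polynomial.X ^ (k + j) * ((Ψ c).divX ^ j * Ψ (W k j))).coeff μ = 0 := by
      intro k hk hne
      by_cases h0 : W k j = 0
      · simp [h0]
      · have := hmin (k, j) (Finset.mem_filter.mpr ⟨Finset.mem_product.mpr ⟨hk, hj⟩, h0⟩)
        simp only at this
        rw [Polynomial.coeff_X_pow_mul', if_neg (by omega)]
    by_cases h : j ≤ μ ∧ μ - j < N
    · simp only [if_pos h]
      rw [Finset.sum_eq_single (μ - j)]
      · have h2 : μ - j + j = μ := by omega
        rw [h2, Polynomial.coeff_X_pow_mul', if_pos le_rfl, Nat.sub_self,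
          Polynomial.mul_coeff_zero]
        by_cases h3 : d < 3 * j
        · rw [(hW _ _).2.2 h3]; simp
        · rw [hΨ0 _ _ (hW (μ - j) j).2.1, Polynomial.coeff_zero_eq_eval_zero,
            Polynomial.eval_pow, ← Polynomial.coeff_zero_eq_eval_zero, Polynomial.coeff_divX,
            zero_add, hc1]
          have h4 : g ^ d = (g ^ 3) ^ j * g ^ (d - 3 * j) := by
            rw [← pow_mul, ← pow_add]; congr 1; omega
          rw [h4]; ring
      · intro k hk hne
        exact hterm k hk (by omega)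
      · intro h5; exact absurd (Finset.mem_range.mpr h.2) h5
    · simp only [if_neg h, eval₂_zero, mul_zero]
      refine Finset.sum_eq_zero fun k hk => hterm k hk ?_
      have := Finset.mem_range.mp hk
      omega

end Vale.Agent.P279
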