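import Mathlib

/-! Definitions used in the statement of Nagata's conjecture. -/

namespace Vale.Agent.P279

/-- The multiplicity at the point `p` of the projective plane of the curve `F = 0`: the least
order of a derivative of `F` that does not vanish at `p`. A list `l` of coordinate
indices encodes the iterated derivative of order `l.length`. -/
noncomputable def mult (F : MvPolynomial (Fin 3) ℂ) (p : Projectivization ℂ (Fin 3 → ℂ)) : ℕ∞ :=
  sInf {n : ℕ∞ | ∃ l : List (Fin 3), n = (l.length : ℕ∞) ∧
    MvPolynomial.eval p.rep (l.foldr (fun k G => MvPolynomial.pderiv k G) F) ≠ 0}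

/-- `G` is homogeneous separately in the three coordinates of each of the `r` points. -/
def IsMultihomogeneous {r : ℕ} (G : MvPolynomial (Fin r × Fin 3) ℂ) : Prop :=
  ∃ e : Fin r → ℕ, ∀ α ∈ G.support, ∀ i : Fin r, ∑ k : Fin 3, α (i, k) = e i

/-- Zariski closed subsets of the `r`-fold product of projective planes: common zero loci of
sets of multihomogeneous polynomials. -/
def IsZariskiClosed {r : ℕ} (Z : Set (Fin r → Projectivization ℂ (Fin 3 → ℂ))) : Prop :=
  ∃ S : Set (MvPolynomial (Fin r × Fin 3) ℂ), (∀ G ∈ S, IsMultihomogeneous G) ∧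
    Z = {p | ∀ G ∈ S, MvPolynomial.eval (fun x => (p x.1).rep x.2) G = 0}

end Vale.Agent.P279
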