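import Vale.Agent.P279.Decomp
import Vale.Agent.P279.Count

/-! The uniform case of the conjecture at one configuration over a large ring. -/

namespace Vale.Agent.P279

open MvPolynomial

lemma hC_X_dvd {z : HS (PowerSeries ℂ)} (h : ∀ k, PowerSeries.constantCoeff (z.coeff k) = 0) :
    HahnSeries.C (PowerSeries.X : PowerSeries ℂ) ∣ z := by
  let sh : ZeroHom (PowerSeries ℂ) (PowerSeries ℂ) :=
    { toFun := fun f => PowerSeries.mk fun n => PowerSeries.coeff (n + 1) f
      map_zero' := by ext; simp }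
  refine ⟨z.map sh, ?_⟩
  ext k : 2
  rw [HahnSeries.C_mul_eq_smul, HahnSeries.coeff_smul, HahnSeries.map_coeff, smul_eq_mul]
  have := PowerSeries.eq_X_mul_shift_add_const (z.coeff k)
  rw [h k, map_zero, add_zero] at this
  exact this

lemma dvd_coeff_of_hC_pow_dvd {D : Type} [CommRing D] {a : D} {M : ℕ} {z : HS D}
    (h : HahnSeries.C a ^ M ∣ z) (k : ℤ) : a ^ M ∣ z.coeff k := by
  obtain ⟨y, rfl⟩ := h
  rw [← map_pow, HahnSeries.C_mul_eq_smul, HahnSeries.coeff_smul, smul_eq_mul]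
  exact Dvd.intro _ rfl

lemma leadingCoeff_pow' {D : Type} [CommRing D] [IsDomain D] (g : HS D) (d : ℕ) :
    (g ^ d).leadingCoeff = g.leadingCoeff ^ d := by
  induction d with
  | zero => simp
  | succ d ih => rw [pow_succ, pow_succ, HahnSeries.leadingCoeff_mul, ih]

lemma leadingCoeff_eq_of {D : Type} [CommRing D] {f : HS D} {k : ℤ}
    (hk : ∀ k' < k, f.coeff k' = 0) (h : f.coeff k ≠ 0) : f.leadingCoeff = f.coeff k := by
  rw [HahnSeries.leadingCoeff_eq]
  congr 1
  apply le_antisymm (HahnSeries.order_le_of_coeff_ne_zero h)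
  by_contra hlt
  have h1 := hk _ (not_le.mp hlt)
  rw [HahnSeries.coeff_order_eq_zero] at h1
  exact h (by rw [h1]; rfl)

/-- The leading term in `t` and the count of roots. -/
theorem t_step {r d m : ℕ} (hr : 10 ≤ r) (hd : 1 ≤ d) (hdm : d ^ 2 ≤ r * m ^ 2)
    (T : ℕ → HS LP)
    (hT : ∀ j, Level (6 * (d * (d + 1))) (6 * (d + 1) * (r * m - 3 * d) - 3) (d - 3 * j) (T j))
    (hT0 : ∀ j, d < 3 * j → T j = 0) (hTne : ∃ j, T j ≠ 0)
    (g : HS LP) (ζ : Fin r → ℂ) (hζ : ∀ i, ζ i ≠ 0) (hinj : Function.Injective ζ)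
    (hg : ∀ i, IsUnit (expand (ζ i) (hζ i) g.leadingCoeff))
    (hdvd : ∀ i κ, HahnSeries.C (PowerSeries.X : PowerSeries ℂ) ^ m ∣
      HahnSeries.C (PowerSeries.X : PowerSeries ℂ) ^ κ * hmap (expand (ζ i) (hζ i))
        (g ^ d * ∑ j ∈ Finset.range (d + 1), (j.choose κ : HS LP) * T j)) : False := by
  classical
  set S := (Finset.range (d + 1)).filter fun j => T j ≠ 0 with hS
  have hSne : S.Nonempty := by
    obtain ⟨j, hj⟩ := hTne
    refine ⟨j, Finset.mem_filter.mpr ⟨Finset.mem_range.mpr ?_, hj⟩⟩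
    by_contra h
    exact hj (hT0 j (by omega))
  obtain ⟨j₀, hj₀, hmin⟩ := Finset.exists_min_image S (fun j => (T j).order) hSne
  set k₁ := (T j₀).order with hk₁
  have hlow : ∀ j, ∀ k < k₁, (T j).coeff k = 0 := by
    intro j k hk
    by_cases h : T j = 0
    · rw [h]; rfl
    · have hj : j ∈ S := by
        refine Finset.mem_filter.mpr ⟨Finset.mem_range.mpr ?_, h⟩
        by_contra h2
        exact h (hT0 j (by omega))
      exact HahnSeries.coeff_eq_zero_of_lt_order (hk.trans_le (hmin j hj))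
  set f : ℕ → HS LP := fun κ => ∑ j ∈ Finset.range (d + 1), (j.choose κ : HS LP) * T j with hf
  have hfc : ∀ κ k, (f κ).coeff k =
      ∑ j ∈ Finset.range (d + 1), (j.choose κ : LP) * (T j).coeff k := by
    intro κ k
    simp only [hf]
    rw [HahnSeries.coeff_sum]
    refine Finset.sum_congr rfl fun j _ => ?_
    rw [← nsmul_eq_mul, ← nsmul_eq_mul, HahnSeries.coeff_nsmul]
    rfl
  have hfcc : ∀ κ l, ((f κ).coeff k₁).coeff l =
      ∑ j ∈ Finset.range (d + 1), (j.choose κ : ℂ) * cf (T j) k₁ l := by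
    intro κ l
    rw [hfc, AddMonoidAlgebra.coeff_sum, Finsupp.finsetSum_apply]
    refine Finset.sum_congr rfl fun j _ => ?_
    rw [← nsmul_eq_mul, ← nsmul_eq_mul, AddMonoidAlgebra.coeff_smul]
    rfl
  have hex : ∃ κ, (f κ).coeff k₁ ≠ 0 := by
    have h1 : (T j₀).coeff k₁ ≠ 0 := by
      rw [hk₁, Ne, HahnSeries.coeff_order_eq_zero]
      exact (Finset.mem_filter.mp hj₀).2
    set S' := (Finset.range (d + 1)).filter fun j => (T j).coeff k₁ ≠ 0 with hS'
    have hS'ne : S'.Nonempty := ⟨j₀, Finset.mem_filter.mpr ⟨(Finset.mem_filter.mp hj₀).1, h1⟩⟩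
    refine ⟨S'.max' hS'ne, ?_⟩
    have hmem := Finset.mem_filter.mp (S'.max'_mem hS'ne)
    rw [hfc, Finset.sum_eq_single (S'.max' hS'ne)]
    · simpa using hmem.2
    · intro j hj hne
      by_cases h2 : (T j).coeff k₁ = 0
      · rw [h2, mul_zero]
      · have := S'.le_max' j (Finset.mem_filter.mpr ⟨hj, h2⟩)
        rw [Nat.choose_eq_zero_of_lt (by omega)]; simp
    · intro h; exact absurd hmem.1 h
  set κ := Nat.find hex with hκ
  have hκne : (f κ).coeff k₁ ≠ 0 := Nat.find_spec hex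
  have hκlt : ∀ κ' < κ, (f κ').coeff k₁ = 0 := fun κ' h => by
    simpa using Nat.find_min hex h
  have hm : 1 ≤ m := by
    rcases Nat.eq_zero_or_pos m with h | h
    · subst h; nlinarith
    · exact h
  have hdm' : (d : ℤ) ^ 2 ≤ r * m ^ 2 := by exact_mod_cast hdm
  have hr' : (10 : ℤ) ≤ r := by exact_mod_cast hr
  have hd' : (1 : ℤ) ≤ d := by exact_mod_cast hd
  have hm' : (1 : ℤ) ≤ m := by exact_mod_cast hm
  have hρ : 3 * (d : ℤ) < r * m := by
    by_contra h
    push Not at h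
    have h1 : ((r : ℤ) * m) ^ 2 ≤ (3 * d) ^ 2 := pow_le_pow_left₀ (by positivity) h 2
    have h2 : (r : ℤ) * d ^ 2 ≤ r * (r * m ^ 2) := mul_le_mul_of_nonneg_left hdm' (by omega)
    nlinarith
  have hwin : ∀ (j : ℕ) (l : ℤ), cf (T j) k₁ l ≠ 0 →
      ((r : ℤ) * m - 3 * d) * (d - 3 * j) ≤ d * l ∧
        ((d : ℤ) * l < r * m * (d - 3 * j) ∨ (3 * (j : ℤ) = d ∧ l = 0)) := by
    intro j l h
    have h3 : 3 * j ≤ d := by
      by_contra h4
      rw [hT0 j (by omega)] at h
      simp at h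
    have hw := (hT j).window (hlow j) h
    have he : ((d - 3 * j : ℕ) : ℤ) = d - 3 * j := by push_cast [Nat.cast_sub h3]; ring
    rw [he] at hw
    have h3' : 3 * (j : ℤ) ≤ d := by exact_mod_cast h3
    have hj0 : (0 : ℤ) ≤ j := by positivity
    obtain ⟨hw1, hw2⟩ := hw
    constructor
    · by_contra hlt
      push Not at hlt
      have : (d : ℤ) * l + 1 ≤ (r * m - 3 * d) * (d - 3 * j) := hlt
      nlinarith
    · by_cases h5 : 3 * (j : ℤ) = d
      · right
        refine ⟨h5, ?_⟩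
        have h6 : (d : ℤ) - 3 * j = 0 := by omega
        rw [h6, mul_zero] at hw1 hw2
        have h7 : (0 : ℤ) < 6 * (d * (d + 1)) := by positivity
        have h8 : 6 * ((d : ℤ) * (d + 1)) * l = 0 := le_antisymm hw2 hw1
        exact (mul_eq_zero.mp h8).resolve_left h7.ne'
      · left
        by_contra hge
        push Not at hge
        have h6 : (1 : ℤ) ≤ d - 3 * j := by omega
        nlinarith
  have hsupp : ∀ l, ((f κ).coeff k₁).coeff l ≠ 0 →
      (κ : ℤ) * (r * m) * (r * m - 3 * d) ≤ d ^ 2 * l ∧ (d : ℤ) * l < r * m * (d - 3 * κ) := by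
    intro l hl
    rw [hfcc] at hl
    obtain ⟨j₁, j₂, hj, -, h1, h2⟩ := exists_wide d κ (fun j => cf (T j) k₁ l)
      (fun κ' h => by rw [← hfcc, hκlt κ' h]; rfl) hl
    exact triangle_bound (by omega) hρ (by positivity) (by exact_mod_cast hj) (by positivity)
      (hwin j₁ l h1).1 (hwin j₂ l h2).2
  have hwidth : ∀ l₁ l₂, ((f κ).coeff k₁).coeff l₁ ≠ 0 → ((f κ).coeff k₁).coeff l₂ ≠ 0 →
      l₂ < l₁ + r * (m - κ) := by
    intro l₁ l₂ h1 h2
    have h3 := (hsupp l₁ h1).1
    have h4 := (hsupp l₂ h2).2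
    by_contra hge
    push Not at hge
    have h5 : (d : ℤ) * (d * l₂) < d * (r * m * (d - 3 * κ)) :=
      mul_lt_mul_of_pos_left h4 (by omega)
    have h6 : (d : ℤ) ^ 2 * (l₁ + r * (m - κ)) ≤ d ^ 2 * l₂ :=
      mul_le_mul_of_nonneg_left hge (by positivity)
    have h7 : (κ : ℤ) * r * d ^ 2 ≤ κ * r * (r * m ^ 2) :=
      mul_le_mul_of_nonneg_left hdm' (by positivity)
    nlinarith
  have hκm : κ ≤ m := by
    obtain ⟨l, hl⟩ : ∃ l, ((f κ).coeff k₁).coeff l ≠ 0 := by
      by_contra h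
      push Not at h
      exact hκne (LaurentPolynomial.ext fun l => by rw [h l]; rfl)
    have h1 := hwidth l l hl hl
    have h2 : (0 : ℤ) < r * (m - κ) := by linarith
    have h3 : (0 : ℤ) < m - κ := by
      by_contra h
      push Not at h
      nlinarith
    omega
  have hlead : (f κ).leadingCoeff = (f κ).coeff k₁ := by
    refine leadingCoeff_eq_of (fun k hk => ?_) hκne
    rw [hfc]
    exact Finset.sum_eq_zero fun j _ => by rw [hlow j k hk, mul_zero]
  obtain ⟨l₁, l₂, h1, h2, h3⟩ := laurent_wide (M := m - κ) ζ hζ hinj hκne (by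
    intro i
    have h4 := hdvd i κ
    have h5 : HahnSeries.C (PowerSeries.X : PowerSeries ℂ) ^ m =
        (HahnSeries.C PowerSeries.X : HS (PowerSeries ℂ)) ^ κ *
          HahnSeries.C PowerSeries.X ^ (m - κ) := by
      rw [← pow_add]; congr 1; omega
    rw [h5, mul_dvd_mul_iff_left
      (pow_ne_zero _ (HahnSeries.C_ne_zero PowerSeries.X_ne_zero))] at h4
    have h6 := dvd_coeff_of_hC_pow_dvd h4 (g ^ d * f κ).order
    rw [hmap_coeff, ← HahnSeries.leadingCoeff_eq, HahnSeries.leadingCoeff_mul,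
      leadingCoeff_pow', hlead, map_mul, map_pow] at h6
    exact ((hg i).pow d).dvd_mul_left.mp h6)
  have h4 := hwidth l₁ l₂ h2 h3
  push_cast [Nat.cast_sub hκm] at h1
  omega

lemma exists_points (r : ℕ) {p : Polynomial ℂ} (hp : p ≠ 0) :
    ∃ ζ : Fin r → ℂ, Function.Injective ζ ∧ (∀ i, ζ i ≠ 0) ∧ ∀ i, p.eval (ζ i) ≠ 0 := by
  have hq : Polynomial.X * p ≠ 0 := mul_ne_zero Polynomial.X_ne_zero hp
  have hinf := (Polynomial.finite_setOfPred_isRoot hq).infinite_compl
  let e := hinf.natEmbedding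
  refine ⟨fun i => (e i : ℂ), ?_, ?_, ?_⟩
  · intro i j hij
    exact Fin.ext (e.injective (Subtype.ext hij))
  · intro i h
    apply (e i).2
    simp only at h
    simp [h]
  · intro i h
    apply (e i).2
    simp [h]

/-- Local computation at one of the points. -/
lemma local_step {E : Type} [CommRing E] {d m μ : ℕ} (π : HS LP →+* E) (ev : HS LP →+* HS ℂ)
    (ε : E) (hε : ∀ y, ε ∣ π y - π (iota (ev y))) (θ : Fin 3 → HS LP)
    (c : MvPolynomial (Fin 3) (HS ℂ)) (hcθ : eval₂ iota θ c = 0) (k₀ : Fin 3) (g : HS LP)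
    (hg : g = eval₂ iota θ (pderiv k₀ c)) (V : ℕ → MvPolynomial (Fin 3) (HS ℂ))
    (F : MvPolynomial (Fin 3) (Polynomial (HS ℂ)))
    (hT : TM (fun k => Polynomial.C (ev (g * θ k)) +
      Polynomial.X * Polynomial.C (if k = k₀ then 1 else 0)) m F)
    (hcoef : ∀ (ψ : HS ℂ →+* Polynomial E) (x : Fin 3 → Polynomial E) (u : Polynomial E),
        eval₂ ψ x c = 0 →
        (eval₂ (Polynomial.mapRingHom ψ)
          (fun k => Polynomial.C (eval₂ ψ x (pderiv k₀ c) * x k) +
            Polynomial.X * Polynomial.C (if k = k₀ then u else 0)) F).coeff μ =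
          eval₂ ψ x (pderiv k₀ c) ^ d *
            ∑ j ∈ Finset.range (d + 1), u ^ j * eval₂ ψ x (V j)) (κ : ℕ) :
    ε ^ m ∣ ε ^ κ * π
        (g ^ d * ∑ j ∈ Finset.range (d + 1), (j.choose κ : HS LP) * eval₂ iota θ (V j)) := by
  classical
  obtain ⟨χ, hχ⟩ : ∃ χ : HS LP →+* Polynomial E, χ = Polynomial.C.comp π := ⟨_, rfl⟩
  have hχ' : ∀ y, χ y = Polynomial.C (π y) := fun y => by rw [hχ]; rfl
  have hnat : ∀ S, eval₂ (χ.comp iota) (fun k => χ (θ k)) S = χ (eval₂ iota θ S) :=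
    fun S => (hom_eval₂ S iota χ θ).symm
  have h1 := hcoef (χ.comp iota) (fun k => χ (θ k)) (1 + Polynomial.C ε * Polynomial.X)
    (by rw [hnat, hcθ, map_zero])
  simp only [hnat, ← hg] at h1
  have h2 := hT.pow_dvd (Polynomial.mapRingHom (χ.comp iota))
    (fun k => Polynomial.C (χ g * χ (θ k)) +
      Polynomial.X * Polynomial.C (if k = k₀ then 1 + Polynomial.C ε * Polynomial.X else 0))
    (Polynomial.C (Polynomial.C ε)) (by
      intro k
      obtain ⟨y, hy⟩ := hε (g * θ k)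
      refine ⟨Polynomial.C (Polynomial.C y) +
        Polynomial.X * Polynomial.C (if k = k₀ then Polynomial.X else 0), ?_⟩
      have h4 : χ g * χ (θ k) = (χ.comp iota) (ev (g * θ k)) +
          Polynomial.C ε * Polynomial.C y := by
        rw [RingHom.comp_apply, ← map_mul χ, hχ', hχ', ← map_mul Polynomial.C, ← map_add, ← hy,
          add_sub_cancel]
      rw [h4]
      generalize ev (g * θ k) = z
      generalize χ.comp iota = ψ
      by_cases hk : k = k₀
      · simp only [if_pos hk, map_add, map_mul, map_one, Polynomial.coe_mapRingHom,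
          Polynomial.map_C, Polynomial.map_X]
        ring
      · simp only [if_neg hk, map_add, map_mul, map_zero, Polynomial.coe_mapRingHom,
          Polynomial.map_C, Polynomial.map_X]
        ring)
  rw [← map_pow, Polynomial.C_dvd_iff_dvd_coeff] at h2
  have h3 := h2 μ
  rw [h1, ← map_pow, Polynomial.C_dvd_iff_dvd_coeff] at h3
  have h4 := h3 κ
  have h5 : ∀ j : ℕ, ((1 + Polynomial.C ε * Polynomial.X) ^ j).coeff κ =
      (j.choose κ : E) * ε ^ κ := by
    intro j
    rw [← Polynomial.coeff_one_add_X_pow, ← Polynomial.comp_C_mul_X_coeff]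
    simp
  rw [hχ', ← map_pow, Polynomial.coeff_C_mul, Polynomial.finsetSum_coeff] at h4
  simp only [hχ', Polynomial.coeff_mul_C, h5] at h4
  convert h4 using 1
  rw [map_mul, map_pow, map_sum, Finset.mul_sum, Finset.mul_sum, Finset.mul_sum]
  refine Finset.sum_congr rfl fun j _ => ?_
  rw [map_mul, map_natCast]
  ring

lemma eps_dvd (π₀ : LP →+* PowerSeries ℂ) (hπ₀ : π₀.comp LaurentPolynomial.C = PowerSeries.C)
    (y : HS LP) : HahnSeries.C (PowerSeries.X : PowerSeries ℂ) ∣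
      hmap π₀ y - hmap π₀ (iota (hmap ((PowerSeries.constantCoeff (R := ℂ)).comp π₀) y)) := by
  apply hC_X_dvd
  intro k
  have h : ∀ x, π₀ (LaurentPolynomial.C x) = PowerSeries.C x := fun x => by
    rw [← hπ₀]; rfl
  rw [HahnSeries.coeff_sub, hmap_coeff, hmap_coeff, iota, hmap_coeff, hmap_coeff, map_sub, h,
    PowerSeries.constantCoeff_C, RingHom.comp_apply, sub_self]

theorem exists_good_uniform {r d m : ℕ} (hr : 10 ≤ r) (hd : 1 ≤ d) (hdm : d ^ 2 ≤ r * m ^ 2) :
    ∃ P : Fin r → Fin 3 → Polynomial (HS ℂ), Good P d (fun _ => m) := by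
  classical
  obtain ⟨n, hn⟩ : ∃ n : ℕ, (n : ℤ) + 1 = d * (d + 1) :=
    ⟨d * (d + 1) - 1, by
      have : 1 ≤ d * (d + 1) := Nat.mul_pos hd (by omega)
      push_cast [Nat.cast_sub this]; ring⟩
  set B : ℤ := 2 * (d + 1) * (r * m - 3 * d) - 1 + 3 * (d * (d + 1)) with hB
  have hlev : ∀ i, Level (6 * (d * (d + 1))) (6 * (d + 1) * (r * m - 3 * d) - 3) 1
      (theta n B i) := by
    intro i
    have := level_theta n B i
    rw [hn] at this
    convert this using 1
    rw [hB]; ring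
  obtain ⟨c, hc0, hc, hcθ⟩ := exists_cubic n B
  let φ : MvPolynomial (Fin 3) (HS ℂ) →+* HS LP := eval₂Hom iota (theta n B)
  have hinj : ∀ (e : ℕ) (W : MvPolynomial (Fin 3) (HS ℂ)), W.IsHomogeneous e → Std W →
      φ W = 0 → W = 0 := fun e W h1 h2 h3 => std_eq_zero n B h1 h2 h3
  have hdec := decomp (decomp_step hc0 hc φ hcθ hinj) d
  obtain ⟨k₀, hk₀⟩ : ∃ k₀, pderiv k₀ c ≠ 0 := by
    by_contra h
    push Not at h
    have h1 := hc.sum_X_mul_pderiv
    simp only [h, mul_zero, Finset.sum_const_zero] at h1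
    have : CharZero (HS ℂ) := charZero_of_injective_algebraMap (algebraMap ℂ (HS ℂ)).injective
    rw [eq_comm, nsmul_eq_mul, mul_eq_zero] at h1
    rcases h1 with h1 | h1
    · exact absurd h1 (Nat.cast_ne_zero.mpr (by norm_num))
    · exact hc0 h1
  set g : HS LP := φ (pderiv k₀ c) with hg
  have hg0 : g ≠ 0 := by
    intro h
    refine hk₀ (hinj _ _ (hc.pderiv (i := k₀)) ?_ h)
    intro α hα
    refine (hc.pderiv (i := k₀)).coeff_eq_zero ?_
    rw [Finsupp.degree_eq_sum, Fin.sum_univ_three]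
    have := hα 0; have := hα 1; have := hα 2
    omega
  obtain ⟨a, p, hp⟩ := LaurentPolynomial.exists_T_pow g.leadingCoeff
  have hp0 : p ≠ 0 := by
    rintro rfl
    rw [map_zero, eq_comm, mul_eq_zero] at hp
    rcases hp with h1 | h1
    · exact HahnSeries.leadingCoeff_ne_zero.mpr hg0 h1
    · exact (LaurentPolynomial.isUnit_T _).ne_zero h1
  obtain ⟨ζ, hζinj, hζ, hζp⟩ := exists_points r hp0
  let ev : Fin r → (LP →+* ℂ) := fun i =>
    (PowerSeries.constantCoeff (R := ℂ)).comp (expand (ζ i) (hζ i))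
  refine ⟨fun i k => Polynomial.C (hmap (ev i) (g * theta n B k)) +
    Polynomial.X * Polynomial.C (if k = k₀ then 1 else 0), ?_⟩
  intro F hF hT
  by_contra hF0
  obtain ⟨μ, V, hV, hVne, hcoef⟩ := s_step hc
    (fun S hS => (hdec S hS).imp fun W hW => ⟨hW.1, hW.2 d le_rfl⟩) F hF hF0
  refine t_step hr hd hdm (fun j => φ (V j)) (fun j => Level.eval₂ hlev (hV j).2.1)
    (fun j hj => by rw [(hV j).2.2 hj, map_zero])
    (hVne.imp fun j hj h => hj (hinj _ _ (hV j).2.1 (hV j).1 h)) g ζ hζ hζinj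
    (fun i => isUnit_expand _ _ hp (hζp i)) ?_
  intro i κ
  exact local_step (hmap (expand (ζ i) (hζ i))) (hmap (ev i)) _
    (eps_dvd _ (expand_comp_C _ _)) (theta n B) c hcθ k₀ g hg V F
    (hT i) (fun ψ x u h => hcoef _ ψ x u k₀ h) κ

end Vale.Agent.P279
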