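import Vale.Agent.P279.Taylor

/-! Transfer of emptiness of a linear system from one configuration to the generic one. -/

namespace Vale.Agent.P279

open MvPolynomial

lemma exists_minor {A I J : Type} [CommRing A] [IsDomain A] [Fintype I] [DecidableEq I]
    (M : J → I → A) (h : ∀ x : I → A, (∀ j, ∑ i, M j i * x i = 0) → x = 0) :
    ∃ f : I → J, Matrix.det (Matrix.of fun a b => M (f a) b) ≠ 0 := by
  classical
  let K := FractionRing A
  let ρ : J → I → K := fun j i => algebraMap A K (M j i)
  have hspan : Submodule.span K (Set.range ρ) = ⊤ := by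
    by_contra hne
    obtain ⟨φ, hφ0, hφ⟩ := Submodule.exists_le_ker_of_lt_top _ (lt_top_iff_ne_top.mpr hne)
    let y : I → K := fun i => φ (fun j => if i = j then 1 else 0)
    have hy : ∀ j, ∑ i, ρ j i * y i = 0 := by
      intro j
      have h1 : φ (ρ j) = 0 := hφ (Submodule.subset_span ⟨j, rfl⟩)
      rw [LinearMap.pi_apply_eq_sum_univ] at h1
      simpa [y] using h1
    obtain ⟨b, hb⟩ := IsLocalization.exist_integer_multiples_of_finite (nonZeroDivisors A) y
    choose x hx using hb
    have hx0 : x = 0 := by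
      refine h x fun j => ?_
      apply IsFractionRing.injective A K
      rw [map_sum, map_zero]
      simp_rw [map_mul, hx, Algebra.smul_def]
      have := hy j
      calc ∑ i, algebraMap A K (M j i) * (algebraMap A K b * y i)
          = algebraMap A K b * ∑ i, ρ j i * y i := by
            rw [Finset.mul_sum]; refine Finset.sum_congr rfl fun i _ => ?_; simp only [ρ]; ring
        _ = 0 := by rw [this, mul_zero]
    apply hφ0
    have hy0 : ∀ i, y i = 0 := by
      intro i
      have h2 := hx i
      rw [hx0, Pi.zero_apply, map_zero, Algebra.smul_def] at h2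
      have hb0 : algebraMap A K b ≠ 0 :=
        IsFractionRing.to_map_ne_zero_of_mem_nonZeroDivisors b.2
      exact (mul_eq_zero.mp h2.symm).resolve_left hb0
    ext v
    rw [LinearMap.comp_apply, LinearMap.pi_apply_eq_sum_univ]
    simp only [LinearMap.zero_comp, LinearMap.zero_apply]
    exact Finset.sum_eq_zero fun i _ => by
      have := hy0 i
      simp only [y] at this
      rw [this, smul_zero]
  obtain ⟨κ, a, -, hsp, hli⟩ := exists_linearIndependent' K ρ
  rw [hspan] at hsp
  let b : Module.Basis κ K (I → K) := Module.Basis.mk hli (by rw [hsp])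
  let e : I ≃ κ := (Pi.basisFun K I).indexEquiv b
  refine ⟨fun i => a (e i), ?_⟩
  have hli2 : LinearIndependent K (Matrix.of fun i j => ρ (a (e i)) j).row :=
    hli.comp e e.injective
  have hu := Matrix.linearIndependent_rows_iff_isUnit.mp hli2
  rw [Matrix.isUnit_iff_isUnit_det] at hu
  intro h0
  apply hu.ne_zero
  have : (Matrix.of fun i j => ρ (a (e i)) j) =
      (algebraMap A K).mapMatrix (Matrix.of fun i j => M (a (e i)) j) := by
    ext i j; simp [ρ]
  rw [this, ← RingHom.map_det, h0, map_zero]

variable {r : ℕ}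

/-- No nonzero form of degree `d` has multiplicity at least `m i` at `P i` for all `i`. -/
def Good {A : Type} [CommRing A] (P : Fin r → Fin 3 → A) (d : ℕ) (m : Fin r → ℕ) : Prop :=
  ∀ F : MvPolynomial (Fin 3) A, F.IsHomogeneous d → (∀ i, TM (P i) (m i) F) → F = 0

/-- Exponent vectors of degree `d`. -/
abbrev Mon (d : ℕ) : Type := {α : Fin 3 →₀ ℕ // α.degree = d}

noncomputable instance (d : ℕ) : Fintype (Mon d) := (Finsupp.finite_of_degree_eq d).fintype

lemma eq_sum_mon {A : Type} [CommRing A] {d : ℕ} {F : MvPolynomial (Fin 3) A}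
    (hF : F.IsHomogeneous d) : F = ∑ α : Mon d, monomial α.1 (coeff α.1 F) := by
  classical
  ext β
  rw [coeff_sum]
  by_cases hβ : β.degree = d
  · rw [Finset.sum_eq_single (⟨β, hβ⟩ : Mon d)]
    · simp
    · intro b _ hb
      rw [coeff_monomial, if_neg]
      intro h; exact hb (Subtype.ext h)
    · simp
  · rw [hF.coeff_eq_zero hβ]
    refine (Finset.sum_eq_zero fun b _ => ?_).symm
    rw [coeff_monomial, if_neg]
    intro h; exact hβ (h ▸ b.2)

lemma coeff_sum_mon {A : Type} [CommRing A] {d : ℕ} (x : Mon d → A) (α : Mon d) :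
    coeff α.1 (∑ α : Mon d, monomial α.1 (x α)) = x α := by
  classical
  rw [coeff_sum, Finset.sum_eq_single α]
  · simp
  · intro b _ hb
    rw [coeff_monomial, if_neg]
    intro h; exact hb (Subtype.ext h)
  · simp

lemma isHomogeneous_sum_mon {A : Type} [CommRing A] {d : ℕ} (x : Mon d → A) :
    (∑ α : Mon d, monomial α.1 (x α) : MvPolynomial (Fin 3) A).IsHomogeneous d :=
  IsHomogeneous.sum _ _ _ fun α _ => isHomogeneous_monomial _ α.2

lemma coeff_shift_sum_mon {A : Type} [CommRing A] {d : ℕ} (P : Fin 3 → A) (x : Mon d → A)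
    (β : Fin 3 →₀ ℕ) :
    coeff β (shift P (∑ α : Mon d, monomial α.1 (x α))) =
      ∑ α : Mon d, coeff β (shift P (monomial α.1 1)) * x α := by
  rw [map_sum, coeff_sum]
  refine Finset.sum_congr rfl fun α _ => ?_
  have : (monomial α.1 (x α) : MvPolynomial (Fin 3) A) = x α • monomial α.1 1 := by
    simp [smul_monomial]
  rw [this, map_smul, coeff_smul, smul_eq_mul, mul_comm]

/-- The coordinate ring of tuples of vectors. -/
abbrev Gen (r : ℕ) : Type := MvPolynomial (Fin r × Fin 3) ℂ

lemma transfer {A : Type} [CommRing A] [IsDomain A] [Algebra ℂ A] (P : Fin r → Fin 3 → A)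
    (d : ℕ) (m : Fin r → ℕ) (h : Good P d m) :
    ∃ G : Gen r, G ≠ 0 ∧ ∀ (A' : Type) [CommRing A'] [IsDomain A'] [Algebra ℂ A']
      (P' : Fin r → Fin 3 → A'), aeval (fun x : Fin r × Fin 3 => P' x.1 x.2) G ≠ 0 →
        Good P' d m := by
  classical
  let J := {x : Fin r × (Fin 3 →₀ ℕ) // x.2.degree < m x.1}
  let E : ∀ (A' : Type) [CommRing A'], (Fin r → Fin 3 → A') → J → Mon d → A' :=
    fun A' _ P' j α => coeff j.1.2 (shift (P' j.1.1) (monomial α.1 1))
  have hE : ∀ (A' : Type) [CommRing A'] [Algebra ℂ A'] (P' : Fin r → Fin 3 → A') j α,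
      aeval (fun x : Fin r × Fin 3 => P' x.1 x.2) (E (Gen r) (fun i k => X (i, k)) j α) =
        E A' P' j α := by
    intro A' _ _ P' j α
    let ψ : Gen r →+* A' := (aeval (fun x : Fin r × Fin 3 => P' x.1 x.2)).toRingHom
    change ψ _ = _
    simp only [E]
    rw [← coeff_map, map_shift, map_monomial, map_one]
    congr 3
    ext k
    simp [ψ]
  obtain ⟨f, hf⟩ := exists_minor (E A P) (by
    intro x hx
    have h0 := h _ (isHomogeneous_sum_mon x) (by
      intro i β hβ
      rw [coeff_shift_sum_mon]
      exact hx ⟨(i, β), hβ⟩)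
    funext α
    rw [← coeff_sum_mon x α, h0]; simp)
  have hdet : ∀ (A' : Type) [CommRing A'] [Algebra ℂ A'] (P' : Fin r → Fin 3 → A'),
      aeval (fun x : Fin r × Fin 3 => P' x.1 x.2)
        (Matrix.det (Matrix.of fun a b => E (Gen r) (fun i k => X (i, k)) (f a) b)) =
        Matrix.det (Matrix.of fun a b => E A' P' (f a) b) := by
    intro A' _ _ P'
    rw [AlgHom.map_det]
    congr 1
    ext a b
    simp [hE]
  refine ⟨Matrix.det (Matrix.of fun a b => E (Gen r) (fun i k => X (i, k)) (f a) b), ?_, ?_⟩
  · intro h0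
    apply hf
    rw [← hdet A P, h0, map_zero]
  · intro A' _ _ _ P' hP' F hF hT
    rw [hdet] at hP'
    by_contra hne
    apply hP'
    rw [← Matrix.exists_mulVec_eq_zero_iff]
    refine ⟨fun α => coeff α.1 F, ?_, ?_⟩
    · intro h0
      apply hne
      rw [eq_sum_mon hF]
      refine Finset.sum_eq_zero fun α _ => ?_
      have := congrFun h0 α
      simp only [Pi.zero_apply] at this
      rw [this, map_zero]
    · funext a
      have h1 := hT (f a).1.1 (f a).1.2 (f a).2
      rw [eq_sum_mon hF, coeff_shift_sum_mon] at h1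
      simpa [Matrix.mulVec, dotProduct, E] using h1

/-- Symmetrisation: emptiness in the uniform case gives emptiness in general. -/
lemma good_gen_of_uniform [NeZero r] (d : ℕ) (m : Fin r → ℕ)
    (h : Good (fun i k => (X (i, k) : Gen r)) (r * d) (fun _ => ∑ i, m i)) :
    Good (fun i k => (X (i, k) : Gen r)) d m := by
  classical
  intro F hF hT
  by_contra hne
  let τ : Fin r → (Gen r →+* Gen r) := fun a =>
    (rename (fun x : Fin r × Fin 3 => (x.1 + a, x.2)) : Gen r →ₐ[ℂ] Gen r).toRingHom
  have hτ : ∀ a, Function.Injective (τ a) := by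
    intro a
    refine rename_injective _ ?_
    intro x y hxy
    simp only [Prod.mk.injEq, add_left_inj] at hxy
    exact Prod.ext hxy.1 hxy.2
  have hprod := h (∏ a : Fin r, map (τ a) F) (by
    have := IsHomogeneous.prod Finset.univ (fun a : Fin r => map (τ a) F) (fun _ => d)
      (fun a _ => hF.map _)
    simpa using this) (by
    intro j
    have h1 := TM.prod (P := fun k => (X (j, k) : Gen r)) Finset.univ (fun a : Fin r => m (j - a))
      (fun a => map (τ a) F) (by
        intro a _
        have h2 := (hT (j - a)).map (τ a)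
        simpa [τ] using h2)
    have h3 : ∑ a : Fin r, m (j - a) = ∑ i, m i := Equiv.sum_comp (Equiv.subLeft j) m
    rwa [h3] at h1)
  rw [Finset.prod_eq_zero_iff] at hprod
  obtain ⟨a, -, ha⟩ := hprod
  exact hne (map_injective _ (hτ a) (by rw [ha, map_zero]))

end Vale.Agent.P279
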