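import Vale.Agent.P279.Defs
import Vale.Agent.P279.Main
import Vale.Agent.P279.Transfer

/-! From the algebraic statement to very general points of the complex plane. -/

namespace Vale.Agent.P279

open MvPolynomial

/-- The multidegree of a monomial. -/
noncomputable def wt {r : ℕ} (α : Fin r × Fin 3 →₀ ℕ) : Fin r →₀ ℕ :=
  Finsupp.equivFunOnFinite.symm fun i => ∑ k : Fin 3, α (i, k)

lemma eval_scale {r : ℕ} (G : Gen r) (a : Fin r → ℂ) (v : Fin r × Fin 3 → ℂ) :
    eval (fun x => a x.1 * v x) G =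
      ∑ α ∈ G.support, (G.coeff α * ∏ x, v x ^ α x) * ∏ i, a i ^ wt α i := by
  rw [eval_eq']
  refine Finset.sum_congr rfl fun α _ => ?_
  have h : ∏ x : Fin r × Fin 3, a x.1 ^ α x = ∏ i, a i ^ wt α i := by
    rw [Fintype.prod_prod_type]
    refine Finset.prod_congr rfl fun i _ => ?_
    simp only [wt, Finsupp.equivFunOnFinite_symm_apply_apply]
    rw [Finset.prod_pow_eq_pow_sum]
  simp only [mul_pow, Finset.prod_mul_distrib, h]
  ring

lemma eval_scale_ne {r : ℕ} {G : Gen r} (hG : IsMultihomogeneous G) (a : Fin r → ℂ)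
    (v : Fin r × Fin 3 → ℂ) (h : eval (fun x => a x.1 * v x) G ≠ 0) : eval v G ≠ 0 := by
  obtain ⟨e, he⟩ := hG
  intro h0
  apply h
  rw [eval_scale]
  have h1 : ∀ α ∈ G.support, (G.coeff α * ∏ x, v x ^ α x) * ∏ i, a i ^ wt α i =
      (G.coeff α * ∏ x, v x ^ α x) * ∏ i, a i ^ e i := by
    intro α hα
    congr 1
    refine Finset.prod_congr rfl fun i _ => ?_
    simp only [wt, Finsupp.equivFunOnFinite_symm_apply_apply]
    rw [he α hα i]
  rw [Finset.sum_congr rfl h1, ← Finset.sum_mul, ← eval_eq', h0, zero_mul]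

lemma exists_multihomogeneous {r : ℕ} {G : Gen r} (hG : G ≠ 0) :
    ∃ G' : Gen r, G' ≠ 0 ∧ IsMultihomogeneous G' ∧ ∀ v : Fin r × Fin 3 → ℂ, eval v G' ≠ 0 →
      ∃ a : Fin r → ℂ, eval (fun x => a x.1 * v x) G ≠ 0 := by
  classical
  obtain ⟨α₀, hα₀⟩ := support_nonempty.mpr hG
  set s := G.support.filter fun α => wt α = wt α₀ with hs
  have hc : ∀ β, coeff β (∑ α ∈ s, monomial α (G.coeff α)) = if β ∈ s then G.coeff β else 0 := by
    intro β
    rw [coeff_sum]
    simp only [coeff_monomial]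
    rw [Finset.sum_ite_eq']
  refine ⟨∑ α ∈ s, monomial α (G.coeff α), ?_, ⟨wt α₀, ?_⟩, ?_⟩
  · intro h
    have h1 := hc α₀
    have h2 : α₀ ∈ s := Finset.mem_filter.mpr ⟨hα₀, rfl⟩
    rw [h, coeff_zero, if_pos h2] at h1
    exact mem_support_iff.mp hα₀ h1.symm
  · intro α hα i
    rw [mem_support_iff, hc] at hα
    have h1 : α ∈ s := by
      by_contra h
      exact hα (if_neg h)
    rw [← (Finset.mem_filter.mp h1).2]
    simp [wt]
  · intro v hv
    by_contra hall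
    push Not at hall
    apply hv
    set H : MvPolynomial (Fin r) ℂ :=
      ∑ α ∈ G.support, monomial (wt α) (G.coeff α * ∏ x, v x ^ α x) with hH
    have hH0 : H = 0 := by
      apply MvPolynomial.funext
      intro a
      rw [map_zero, ← hall a, eval_scale, hH, map_sum]
      refine Finset.sum_congr rfl fun α _ => ?_
      rw [eval_monomial, Finsupp.prod_fintype _ _ (by simp)]
    have h1 := congrArg (coeff (wt α₀)) hH0
    rw [hH, coeff_sum, coeff_zero] at h1
    simp only [coeff_monomial] at h1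
    rw [← Finset.sum_filter] at h1
    rw [map_sum, ← h1]
    refine Finset.sum_congr rfl fun α _ => ?_
    rw [eval_monomial, Finsupp.prod_fintype _ _ (by simp)]

lemma exists_common_nonroot {σ : Type} [Fintype σ] (Q : ℕ → MvPolynomial σ ℂ)
    (hQ : ∀ n, Q n ≠ 0) : ∃ v : σ → ℂ, ∀ n, eval v (Q n) ≠ 0 := by
  have h1 : Dense (⋂ n, {v : σ → ℂ | eval v (Q n) ≠ 0}) := by
    refine dense_iInter_of_isOpen (fun n => ?_) (fun n => ?_)
    · exact isOpen_ne_fun (MvPolynomial.continuous_eval (Q n)) continuous_const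
    · rw [Metric.dense_iff]
      intro x δ hδ
      by_contra h
      apply hQ n
      refine MvPolynomial.funext_set (fun i => Metric.ball (x i) δ) (fun i => ?_) ?_
      · exact infinite_of_mem_nhds (x i) (Metric.ball_mem_nhds _ hδ)
      · intro y hy
        by_contra h2
        apply h
        refine ⟨y, ?_, ?_⟩
        · rw [ball_pi _ hδ]; exact hy
        · simpa using h2
  obtain ⟨v, hv⟩ := h1.nonempty
  exact ⟨v, fun n => Set.mem_iInter.mp hv n⟩

lemma exists_injective_nonroot {r : ℕ} (hr : 2 ≤ r) (Q : ℕ → Gen r) (hQ : ∀ n, Q n ≠ 0)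
    (hQ' : ∀ n, IsMultihomogeneous (Q n)) :
    ∃ p : Fin r → Projectivization ℂ (Fin 3 → ℂ), Function.Injective p ∧
      ∀ n, eval (fun x => (p x.1).rep x.2) (Q n) ≠ 0 := by
  classical
  let D : Fin r × Fin r → Gen r := fun ij =>
    if ij.1 = ij.2 then 1 else X (ij.1, 0) * X (ij.2, 1) - X (ij.1, 1) * X (ij.2, 0)
  have hD : ∀ ij, D ij ≠ 0 := by
    intro ij
    by_cases h : ij.1 = ij.2
    · simp [D, h]
    · simp only [D, if_neg h]
      intro h0
      have h1 := congrArg (eval fun x : Fin r × Fin 3 =>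
        if x = (ij.1, 0) ∨ x = (ij.2, 1) then (1 : ℂ) else 0) h0
      simp [h] at h1
  obtain ⟨v, hv⟩ := exists_common_nonroot (fun n => Q n * ∏ ij, D ij)
    (fun n => mul_ne_zero (hQ n) (Finset.prod_ne_zero_iff.mpr fun ij _ => hD ij))
  have hdet : ∀ i j, i ≠ j → v (i, 0) * v (j, 1) - v (i, 1) * v (j, 0) ≠ 0 := by
    intro i j hij
    have h1 := hv 0
    rw [map_mul, map_prod] at h1
    have h2 := Finset.prod_ne_zero_iff.mp (right_ne_zero_of_mul h1) (i, j) (Finset.mem_univ _)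
    simpa [D, hij] using h2
  have hv0 : ∀ i, (fun k => v (i, k)) ≠ 0 := by
    intro i h
    have : Nontrivial (Fin r) := Fin.nontrivial_iff_two_le.mpr hr
    obtain ⟨j, hj⟩ := exists_ne i
    apply hdet i j hj.symm
    have h0 : v (i, 0) = 0 := congrFun h 0
    have h1 : v (i, 1) = 0 := congrFun h 1
    rw [h0, h1]; ring
  refine ⟨fun i => Projectivization.mk ℂ _ (hv0 i), ?_, fun n => ?_⟩
  · intro i j hij
    by_contra hne
    obtain ⟨a, ha⟩ := (Projectivization.mk_eq_mk_iff' ℂ _ _ (hv0 i) (hv0 j)).mp hij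
    apply hdet i j hne
    have h0 : a * v (j, 0) = v (i, 0) := congrFun ha 0
    have h1 : a * v (j, 1) = v (i, 1) := congrFun ha 1
    rw [← h0, ← h1]; ring
  · have h1 : ∀ i, ∃ a : ℂ, a • (Projectivization.mk ℂ _ (hv0 i)).rep = fun k => v (i, k) :=
      fun i => (Projectivization.mk_eq_mk_iff' ℂ _ _ (hv0 i) (Projectivization.rep_nonzero _)).mp
        (Projectivization.mk_rep _).symm
    choose a ha using h1
    refine eval_scale_ne (hQ' n) a _ ?_
    have h2 : (fun x : Fin r × Fin 3 =>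
        a x.1 * (Projectivization.mk ℂ _ (hv0 x.1)).rep x.2) = v := by
      funext x
      exact congrFun (ha x.1) x.2
    rw [h2]
    have h3 := hv n
    rw [map_mul] at h3
    exact left_ne_zero_of_mul h3

lemma exists_locus {r : ℕ} (hr : 10 ≤ r) (d : ℕ) (m : Fin r → ℕ) :
    ∃ G : Gen r, G ≠ 0 ∧ IsMultihomogeneous G ∧ (1 ≤ d → (d : ℝ) * √r ≤ ∑ i, (m i : ℝ) →
      ∀ v : Fin r × Fin 3 → ℂ, eval v G ≠ 0 →
        ∃ a : Fin r → ℂ, Good (fun i k => a i * v (i, k)) d m) := by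
  by_cases h : 1 ≤ d ∧ (d : ℝ) * √r ≤ ∑ i, (m i : ℝ)
  · obtain ⟨hd, hm⟩ := h
    have : NeZero r := ⟨by omega⟩
    have h1 : (r * d) ^ 2 ≤ r * (∑ i, m i) ^ 2 := by
      have h2 : ((d : ℝ) * √r) ^ 2 ≤ (∑ i, (m i : ℝ)) ^ 2 :=
        pow_le_pow_left₀ (by positivity) hm 2
      rw [mul_pow, Real.sq_sqrt (by positivity)] at h2
      have h3 : d ^ 2 * r ≤ (∑ i, m i) ^ 2 := by exact_mod_cast h2
      calc (r * d) ^ 2 = r * (d ^ 2 * r) := by ring
        _ ≤ r * (∑ i, m i) ^ 2 := Nat.mul_le_mul_left _ h3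
    obtain ⟨P, hP⟩ := exists_good_uniform hr (Nat.mul_pos (by omega) hd) h1
    obtain ⟨G₁, hG₁, h₁⟩ := transfer P _ _ hP
    have h2 := h₁ (Gen r) (fun i k => X (i, k)) (by
      have : (fun x : Fin r × Fin 3 => (X (x.1, x.2) : Gen r)) = X := rfl
      rw [this, aeval_X_left_apply]
      exact hG₁)
    obtain ⟨G₂, hG₂, h₂⟩ := transfer _ _ _ (good_gen_of_uniform d m h2)
    obtain ⟨G, hG, hG', h₃⟩ := exists_multihomogeneous hG₂
    refine ⟨G, hG, hG', fun _ _ v hv => ?_⟩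
    obtain ⟨a, ha⟩ := h₃ v hv
    exact ⟨a, h₂ ℂ _ ha⟩
  · refine ⟨1, one_ne_zero, ⟨0, fun α hα i => ?_⟩, fun h1 h2 => absurd ⟨h1, h2⟩ h⟩
    have h0 : α = 0 := by
      by_contra h0
      rw [mem_support_iff, coeff_one, if_neg (Ne.symm h0)] at hα
      exact hα rfl
    simp [h0]

theorem nagata (r : ℕ) (hr : 10 ≤ r) :
    ∃ Z : ℕ → Set (Fin r → Projectivization ℂ (Fin 3 → ℂ)),
      (∀ n, IsZariskiClosed (Z n) ∧ ∃ p, Function.Injective p ∧ p ∉ Z n) ∧
      (∃ p, Function.Injective p ∧ ∀ n, p ∉ Z n) ∧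
      ∀ p : Fin r → Projectivization ℂ (Fin 3 → ℂ), Function.Injective p → (∀ n, p ∉ Z n) →
        ∀ (d : ℕ) (F : MvPolynomial (Fin 3) ℂ), 1 ≤ d → F ≠ 0 → F.IsHomogeneous d →
          ∀ m : Fin r → ℕ, (∀ i, (m i : ℕ∞) ≤ mult F (p i)) →
            ∑ i, (m i : ℝ) < (d : ℝ) * √(r : ℝ) := by
  choose G hG hG' hgood using fun dm : ℕ × (Fin r → ℕ) => exists_locus hr dm.1 dm.2
  obtain ⟨e, he⟩ := exists_surjective_nat (ℕ × (Fin r → ℕ))
  obtain ⟨p₀, hp₀, hp₀'⟩ := exists_injective_nonroot (by omega) (fun n => G (e n))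
    (fun n => hG _) (fun n => hG' _)
  refine ⟨fun n => {p | eval (fun x => (p x.1).rep x.2) (G (e n)) = 0},
    fun n => ⟨⟨{G (e n)}, ?_, ?_⟩, p₀, hp₀, hp₀' n⟩, ⟨p₀, hp₀, hp₀'⟩, ?_⟩
  · rintro _ rfl
    exact hG' _
  · simp
  · intro p _ hp d F hd hF hFd m hm
    by_contra hge
    push Not at hge
    obtain ⟨n, hn⟩ := he (d, m)
    have h1 := hp n
    simp only [Set.mem_ofPred_eq, hn] at h1
    obtain ⟨a, ha⟩ := hgood (d, m) hd hge _ h1
    refine hF (ha F hFd fun i => TM_of_deriv _ _ fun l hl => ?_)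
    have h2 : eval (p i).rep (iterD l F) = 0 := by
      by_contra h3
      have h4 : mult F (p i) ≤ (l.length : ℕ∞) := sInf_le ⟨l, rfl, h3⟩
      have h5 : m i ≤ l.length := by exact_mod_cast (hm i).trans h4
      exact absurd hl (not_lt.mpr h5)
    have h3 := eval₂_smul_of_isHomogeneous (RingHom.id ℂ) (iterD_isHomogeneous hFd l) (a i)
      (p i).rep
    rw [eval₂_id, eval₂_id, h2, mul_zero] at h3
    exact h3

end Vale.Agent.P279
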