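import Vale.Agent.P279.Taylor

/-! Laurent series in `t` with coefficients Laurent polynomials in `z`. -/

namespace Vale.Agent.P279

open LaurentPolynomial

/-- Laurent series over a ring. -/
abbrev HS (D : Type) [Zero D] : Type := HahnSeries ℤ D

/-- Laurent polynomials over the complex numbers. -/
abbrev LP : Type := LaurentPolynomial ℂ

/-- The coefficientwise ring map of Laurent series. -/
noncomputable def hmap {D D' : Type} [CommRing D] [CommRing D'] (f : D →+* D') :
    HS D →+* HS D' where
  toFun x := x.map f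
  map_one' := HahnSeries.map_one f.toMonoidWithZeroHom
  map_mul' _ _ := HahnSeries.map_mul f.toNonUnitalRingHom
  map_zero' := HahnSeries.map_zero f.toZeroHom
  map_add' _ _ := HahnSeries.map_add f.toAddMonoidHom

@[simp] lemma hmap_coeff {D D' : Type} [CommRing D] [CommRing D'] (f : D →+* D') (x : HS D)
    (k : ℤ) : (hmap f x).coeff k = f (x.coeff k) := rfl

lemma hmap_comp {D D' D'' : Type} [CommRing D] [CommRing D'] [CommRing D''] (f : D →+* D')
    (g : D' →+* D'') : (hmap g).comp (hmap f) = hmap (g.comp f) := by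
  ext x k; rfl

/-- Scalars. -/
noncomputable def iota : HS ℂ →+* HS LP := hmap (LaurentPolynomial.C)

/-- Coefficient of `t ^ k z ^ l`. -/
noncomputable def cf (f : HS LP) (k l : ℤ) : ℂ := (f.coeff k).coeff l

@[simp] lemma cf_zero (k l : ℤ) : cf 0 k l = 0 := by simp [cf]
lemma cf_add (f g : HS LP) (k l : ℤ) : cf (f + g) k l = cf f k l + cf g k l := by simp [cf]
lemma cf_sub (f g : HS LP) (k l : ℤ) : cf (f - g) k l = cf f k l - cf g k l := by simp [cf]
lemma cf_sum {ι : Type} (s : Finset ι) (f : ι → HS LP) (k l : ℤ) :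
    cf (∑ i ∈ s, f i) k l = ∑ i ∈ s, cf (f i) k l := by
  classical
  induction s using Finset.induction_on with
  | empty => simp
  | insert i s hi ih => rw [Finset.sum_insert hi, Finset.sum_insert hi, cf_add, ih]

lemma cf_ext {f g : HS LP} (h : ∀ k l, cf f k l = cf g k l) : f = g := by
  ext k l; exact h k l

lemma cf_iota (x : HS ℂ) (k l : ℤ) : cf (iota x) k l = if l = 0 then x.coeff k else 0 := by
  simp [cf, iota]

lemma cf_one (k l : ℤ) : cf 1 k l = if l = 0 ∧ k = 0 then 1 else 0 := by
  rw [← map_one iota, cf_iota, HahnSeries.coeff_one]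
  by_cases h1 : l = 0 <;> by_cases h2 : k = 0 <;> simp [h1, h2]

lemma cf_mul (f g : HS LP) (k l : ℤ) :
    cf (f * g) k l = ∑ᶠ p : ℤ × ℤ, cf f p.1 p.2 * cf g (k - p.1) (l - p.2) := by
  classical
  set AD := Finset.antidiagonal f.isPWO_support g.isPWO_support k with hAD
  set S1 := AD.image Prod.fst with hS1
  set T := S1.biUnion (fun i => (f.coeff i).coeff.support) with hT
  rw [finsum_eq_sum_of_support_subset (s := S1 ×ˢ T)]
  · rw [Finset.sum_product, hS1, Finset.sum_image]
    · rw [cf, HahnSeries.coeff_mul, AddMonoidAlgebra.coeff_sum, Finsupp.finsetSum_apply]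
      refine Finset.sum_congr rfl fun ij hij => ?_
      have h2 : ij.2 = k - ij.1 := by
        have := (Finset.mem_antidiagonal.mp hij).2.2
        omega
      rw [AddMonoidAlgebra.coeff_mul_apply_left, Finsupp.sum_of_support_subset (s := T)]
      · refine Finset.sum_congr rfl fun a _ => ?_
        simp only [cf]
        rw [h2, neg_add_eq_sub]
      · intro a ha
        exact Finset.mem_biUnion.mpr ⟨ij.1, Finset.mem_image_of_mem _ hij, ha⟩
      · intro a _; simp
    · intro x hx y hy hxy
      have h1 := (Finset.mem_antidiagonal.mp hx).2.2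
      have h2 := (Finset.mem_antidiagonal.mp hy).2.2
      ext
      · exact hxy
      · omega
  · intro p hp
    have hp' := mul_ne_zero_iff.mp hp
    have h1 : f.coeff p.1 ≠ 0 := by
      intro h; apply hp'.1; simp [cf, h]
    have h2 : g.coeff (k - p.1) ≠ 0 := by
      intro h; apply hp'.2; simp [cf, h]
    have h3 : p.1 ∈ S1 := Finset.mem_image.mpr ⟨(p.1, k - p.1),
      Finset.mem_antidiagonal.mpr ⟨h1, h2, by simp⟩, rfl⟩
    simp only [Finset.coe_product, Set.mem_prod, Finset.mem_coe]
    exact ⟨h3, Finset.mem_biUnion.mpr ⟨p.1, h3, Finsupp.mem_support_iff.mpr hp'.1⟩⟩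

/-- The coefficient of `z ^ l`, as a Laurent series in `t`. -/
noncomputable def col (l : ℤ) (f : HS LP) : HS ℂ where
  coeff k := cf f k l
  isPWO_support' := f.isPWO_support.mono (by
    intro k hk h
    apply hk
    simp [cf, h])

@[simp] lemma col_coeff (l : ℤ) (f : HS LP) (k : ℤ) : (col l f).coeff k = cf f k l := rfl

lemma col_iota_mul (l : ℤ) (x : HS ℂ) (f : HS LP) : col l (iota x * f) = x * col l f := by
  classical
  ext k
  have h1 : (iota x).support ⊆ x.support := by
    intro i hi h
    apply hi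
    simp [iota, h]
  have h2 : (col l f).support ⊆ f.support := by
    intro i hi h
    apply hi
    simp [cf, h]
  rw [col_coeff, cf, HahnSeries.coeff_mul_left' x.isPWO_support h1,
    HahnSeries.coeff_mul_right' f.isPWO_support h2, AddMonoidAlgebra.coeff_sum,
    Finsupp.finsetSum_apply]
  refine Finset.sum_congr rfl fun ij _ => ?_
  simp [iota, cf, ← LaurentPolynomial.smul_eq_C_mul]

lemma col_sum {ι : Type} (l : ℤ) (s : Finset ι) (f : ι → HS LP) :
    col l (∑ i ∈ s, f i) = ∑ i ∈ s, col l (f i) := by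
  ext k
  rw [col_coeff, cf_sum, HahnSeries.coeff_sum]
  rfl

/-- The functional equation of level `e`. -/
def Level (N A : ℤ) (e : ℕ) (f : HS LP) : Prop :=
  ∀ k l, cf f (k + N * l - A * e) (l + 3 * e) = cf f k l

variable {N A : ℤ}

lemma Level.zero (e : ℕ) : Level N A e 0 := by intro k l; simp

lemma Level.add {e : ℕ} {f g : HS LP} (hf : Level N A e f) (hg : Level N A e g) :
    Level N A e (f + g) := by
  intro k l; rw [cf_add, cf_add, hf, hg]

lemma Level.sum {ι : Type} {e : ℕ} (s : Finset ι) (f : ι → HS LP)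
    (h : ∀ i ∈ s, Level N A e (f i)) : Level N A e (∑ i ∈ s, f i) := by
  intro k l
  rw [cf_sum, cf_sum]
  exact Finset.sum_congr rfl fun i hi => h i hi k l

lemma Level.iota (x : HS ℂ) : Level N A 0 (iota x) := by
  intro k l
  rw [cf_iota, cf_iota]
  by_cases h : l = 0 <;> simp [h]

lemma Level.mul {e e' : ℕ} {f g : HS LP} (hf : Level N A e f) (hg : Level N A e' g) :
    Level N A (e + e') (f * g) := by
  intro k l
  rw [cf_mul, cf_mul]
  let τ : ℤ × ℤ ≃ ℤ × ℤ :=
    { toFun := fun p => (p.1 + N * p.2 - A * e, p.2 + 3 * e)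
      invFun := fun p => (p.1 - N * (p.2 - 3 * e) + A * e, p.2 - 3 * e)
      left_inv := fun p => by
        ext
        · simp only; ring
        · simp only; ring
      right_inv := fun p => by
        ext
        · simp only; ring
        · simp only; ring }
  rw [← finsum_comp_equiv τ]
  refine finsum_congr fun p => ?_
  simp only [τ, Equiv.coe_fn_mk]
  rw [hf, ← hg (k - p.1) (l - p.2)]
  congr 2 <;> push_cast <;> ring

lemma Level.pow {f : HS LP} (hf : Level N A 1 f) (n : ℕ) : Level N A n (f ^ n) := by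
  induction n with
  | zero => simpa using Level.iota (N := N) (A := A) 1
  | succ n ih => rw [pow_succ]; exact ih.mul hf

lemma Level.eval₂ {x : Fin 3 → HS LP} (hx : ∀ i, Level N A 1 (x i))
    {S : MvPolynomial (Fin 3) (HS ℂ)} {e : ℕ} (hS : S.IsHomogeneous e) :
    Level N A e (MvPolynomial.eval₂ Vale.Agent.P279.iota x S) := by
  classical
  rw [MvPolynomial.eval₂_eq']
  refine Level.sum _ _ fun β hβ => ?_
  have hd : β.degree = e := by
    by_contra hne
    exact (MvPolynomial.mem_support_iff.mp hβ) (hS.coeff_eq_zero hne)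
  have := (Level.iota (N := N) (A := A) (MvPolynomial.coeff β S)).mul
    ((((hx 0).pow (β 0)).mul ((hx 1).pow (β 1))).mul ((hx 2).pow (β 2)))
  rw [Fin.prod_univ_three, ← hd, Finsupp.degree_eq_sum, Fin.sum_univ_three]
  simpa using this

/-- A series of positive level is determined by `3 e` columns. -/
lemma Level.eq_zero {e : ℕ} (he : 0 < e) {f : HS LP} (hf : Level N A e f)
    (h : ∀ l : ℤ, 0 ≤ l → l < 3 * e → ∀ k, cf f k l = 0) : f = 0 := by
  have key : ∀ q : ℤ, ∀ l : ℤ, 0 ≤ l → l < 3 * e → ∀ k, cf f k (l + 3 * e * q) = 0 := by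
    intro q
    induction q using Int.induction_on with
    | zero => simpa using h
    | succ q ih =>
      intro l h0 h1 k
      have h2 := hf (k - N * (l + 3 * e * q) + A * e) (l + 3 * e * q)
      rw [ih l h0 h1] at h2
      rw [← h2]; congr 1 <;> ring
    | pred q ih =>
      intro l h0 h1 k
      rw [← hf k]
      rw [← ih l h0 h1 (k + N * (l + 3 * e * (-(q : ℤ) - 1)) - A * e)]
      congr 1; ring
  refine cf_ext fun k l => ?_
  have h3 : (0 : ℤ) < 3 * e := by omega
  have := key (l / (3 * e)) (l % (3 * e)) (Int.emod_nonneg _ h3.ne') (Int.emod_lt_of_pos _ h3) k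
  rw [Int.emod_add_mul_ediv] at this
  simpa using this

/-- The window containing the leading exponents of a series of level `e`. -/
lemma Level.window {e : ℕ} {f : HS LP} (hf : Level N A e f) {k l : ℤ}
    (hk : ∀ k' < k, f.coeff k' = 0) (h : cf f k l ≠ 0) :
    A * e ≤ N * l ∧ N * l ≤ (A + 3 * N) * e := by
  constructor
  · by_contra hlt
    apply h
    rw [← hf k l, cf, hk _ (by omega)]; simp
  · by_contra hlt
    apply h
    have h2 := hf (k - N * (l - 3 * e) + A * e) (l - 3 * e)
    have h3 : cf f (k - N * (l - 3 * e) + A * e) (l - 3 * e) = 0 := by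
      rw [cf, hk _ (by nlinarith)]; simp
    rw [h3] at h2
    rw [← h2]; congr 1 <;> ring

/-- Lower bound for the weight `k - w l` on the support. -/
def Bd (w a : ℤ) (f : HS LP) : Prop := ∀ k l, cf f k l ≠ 0 → a ≤ k - w * l

variable {w : ℤ}

lemma Bd.zero (a : ℤ) : Bd w a 0 := by intro k l h; simp at h

lemma Bd.add {a : ℤ} {f g : HS LP} (hf : Bd w a f) (hg : Bd w a g) : Bd w a (f + g) := by
  intro k l h
  rw [cf_add] at h
  by_cases h1 : cf f k l = 0
  · rw [h1, zero_add] at h; exact hg k l h
  · exact hf k l h1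

lemma Bd.sum {ι : Type} {a : ℤ} (s : Finset ι) (f : ι → HS LP) (h : ∀ i ∈ s, Bd w a (f i)) :
    Bd w a (∑ i ∈ s, f i) := by
  intro k l hkl
  rw [cf_sum] at hkl
  obtain ⟨i, hi, hne⟩ := Finset.exists_ne_zero_of_sum_ne_zero hkl
  exact h i hi k l hne

lemma Bd.mono {a b : ℤ} {f : HS LP} (hf : Bd w a f) (h : b ≤ a) : Bd w b f :=
  fun k l hkl => h.trans (hf k l hkl)

lemma Bd.mul {a b : ℤ} {f g : HS LP} (hf : Bd w a f) (hg : Bd w b g) : Bd w (a + b) (f * g) := by
  intro k l h
  by_contra hlt
  apply h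
  rw [cf_mul]
  refine finsum_eq_zero_of_forall_eq_zero fun p => ?_
  by_contra hne
  have hp' := mul_ne_zero_iff.mp hne
  have h1 := hf _ _ hp'.1
  have h2 := hg _ _ hp'.2
  apply hlt
  nlinarith

lemma Bd.one : Bd w 0 1 := by
  intro k l h
  rw [cf_one] at h
  by_cases h1 : l = 0 ∧ k = 0
  · simp [h1.1, h1.2]
  · simp [h1] at h

lemma Bd.iota {a : ℤ} {x : HS ℂ} (hx : ∀ k < a, x.coeff k = 0) : Bd w a (iota x) := by
  intro k l h
  rw [cf_iota] at h
  by_cases h1 : l = 0
  · rw [if_pos h1] at h
    by_contra hlt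
    apply h; apply hx; subst h1; omega
  · simp [h1] at h

/-- Two series with the same initial part in weight `a`. -/
def Near (w a : ℤ) (f g : HS LP) : Prop := Bd w a f ∧ Bd w a g ∧ Bd w (a + 1) (f - g)

lemma Near.mul {a b : ℤ} {f g f' g' : HS LP} (h : Near w a f g) (h' : Near w b f' g') :
    Near w (a + b) (f * f') (g * g') := by
  refine ⟨h.1.mul h'.1, h.2.1.mul h'.2.1, ?_⟩
  have : f * f' - g * g' = (f - g) * f' + g * (f' - g') := by ring
  rw [this]
  exact ((h.2.2.mul h'.1).mono (by omega)).add ((h.2.1.mul h'.2.2).mono (by omega))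

lemma Near.refl {a : ℤ} {f : HS LP} (h : Bd w a f) : Near w a f f :=
  ⟨h, h, by rw [sub_self]; exact Bd.zero _⟩

lemma Near.pow {a : ℤ} {f g : HS LP} (h : Near w a f g) (n : ℕ) :
    Near w (n * a) (f ^ n) (g ^ n) := by
  induction n with
  | zero => simpa using Near.refl Bd.one
  | succ n ih =>
    rw [pow_succ, pow_succ]
    have := ih.mul h
    push_cast
    rwa [add_mul, one_mul]

end Vale.Agent.P279
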