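import Mathlib

/-! Taylor multiplicity of a polynomial at a point, over any commutative ring. -/

namespace Vale.Agent.P279

open MvPolynomial

variable {A B : Type} [CommRing A] [CommRing B]

/-- The substitution `X k ↦ P k + X k`. -/
noncomputable def shift (P : Fin 3 → A) : MvPolynomial (Fin 3) A →ₐ[A] MvPolynomial (Fin 3) A :=
  aeval (fun k => C (P k) + X k)

/-- All Taylor coefficients of order less than `m` of `F` at `P` vanish. -/
def TM (P : Fin 3 → A) (m : ℕ) (F : MvPolynomial (Fin 3) A) : Prop :=
  ∀ β : Fin 3 →₀ ℕ, β.degree < m → coeff β (shift P F) = 0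

lemma TM_zero (P : Fin 3 → A) (F : MvPolynomial (Fin 3) A) : TM P 0 F := by
  intro β h; exact absurd h (Nat.not_lt_zero _)

lemma TM.mul {P : Fin 3 → A} {a b : ℕ} {F G : MvPolynomial (Fin 3) A}
    (hF : TM P a F) (hG : TM P b G) : TM P (a + b) (F * G) := by
  classical
  intro β hβ
  rw [map_mul, coeff_mul]
  refine Finset.sum_eq_zero fun x hx => ?_
  have hx' : x.1 + x.2 = β := by simpa using hx
  have hd : x.1.degree + x.2.degree = β.degree := by rw [← map_add, hx']
  by_cases h1 : x.1.degree < a
  · rw [hF _ h1, zero_mul]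
  · rw [hG _ (by omega), mul_zero]

lemma TM.prod {ι : Type} (s : Finset ι) {P : Fin 3 → A} (a : ι → ℕ)
    (F : ι → MvPolynomial (Fin 3) A) (h : ∀ i ∈ s, TM P (a i) (F i)) :
    TM P (∑ i ∈ s, a i) (∏ i ∈ s, F i) := by
  classical
  induction s using Finset.induction_on with
  | empty => simpa using TM_zero P 1
  | insert i s hi ih =>
    rw [Finset.sum_insert hi, Finset.prod_insert hi]
    exact (h i (Finset.mem_insert_self _ _)).mul
      (ih fun j hj => h j (Finset.mem_insert_of_mem hj))

lemma map_shift (φ : A →+* B) (P : Fin 3 → A) (F : MvPolynomial (Fin 3) A) :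
    map φ (shift P F) = shift (fun k => φ (P k)) (map φ F) := by
  induction F using MvPolynomial.induction_on with
  | C a => simp [shift]
  | add p q hp hq => simp [hp, hq]
  | mul_X p k hp =>
    rw [map_mul, map_mul, map_mul, map_mul, hp]
    simp [shift]

lemma TM.map (φ : A →+* B) {P : Fin 3 → A} {m : ℕ} {F : MvPolynomial (Fin 3) A}
    (h : TM P m F) : TM (fun k => φ (P k)) m (map φ F) := by
  intro β hβ
  rw [← map_shift, coeff_map, h β hβ, map_zero]

lemma eval₂_shift (φ : A →+* B) (P : Fin 3 → A) (y : Fin 3 → B) (F : MvPolynomial (Fin 3) A) :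
    eval₂ φ y (shift P F) = eval₂ φ (fun k => φ (P k) + y k) F := by
  induction F using MvPolynomial.induction_on with
  | C a => simp [shift]
  | add p q hp hq => simp [hp, hq]
  | mul_X p k hp =>
    rw [map_mul, eval₂_mul, eval₂_mul, hp]
    simp [shift]

lemma TM.pow_dvd (φ : A →+* B) {P : Fin 3 → A} {m : ℕ} {F : MvPolynomial (Fin 3) A}
    (h : TM P m F) (x : Fin 3 → B) (ε : B) (hx : ∀ k, ε ∣ x k - φ (P k)) :
    ε ^ m ∣ eval₂ φ x F := by
  classical
  have h1 : eval₂ φ x F = eval₂ φ (fun k => x k - φ (P k)) (shift P F) := by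
    rw [eval₂_shift]; congr 1; ext k; ring
  rw [h1, eval₂_eq']
  refine Finset.dvd_sum fun β hβ => ?_
  have hm : m ≤ β.degree := by
    by_contra hlt
    exact (mem_support_iff.mp hβ) (h β (not_le.mp hlt))
  refine Dvd.dvd.mul_left ?_ _
  refine (pow_dvd_pow ε hm).trans ?_
  rw [Finsupp.degree_eq_sum, ← Finset.prod_pow_eq_pow_sum]
  exact Finset.prod_dvd_prod_of_dvd _ _ fun k _ => pow_dvd_pow_of_dvd (hx k) _

lemma pderiv_shift (P : Fin 3 → A) (k : Fin 3) (F : MvPolynomial (Fin 3) A) :
    pderiv k (shift P F) = shift P (pderiv k F) := by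
  classical
  induction F using MvPolynomial.induction_on with
  | C a => simp [shift]
  | add p q hp hq => simp [hp, hq]
  | mul_X p j hp =>
    rw [map_mul, Derivation.leibniz, Derivation.leibniz, hp, map_add]
    by_cases hj : j = k
    · subst hj; simp [shift]
    · simp [shift, pderiv_X_of_ne hj]

lemma coeff_zero_shift (P : Fin 3 → A) (F : MvPolynomial (Fin 3) A) :
    coeff 0 (shift P F) = eval P F := by
  have h := eval₂_shift (RingHom.id A) P (fun _ => 0) F
  simp only [RingHom.id_apply, add_zero, eval₂_id] at h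
  rw [← h]
  simp [← constantCoeff_eq]

/-- Iterated derivative along a list of coordinate directions. -/
noncomputable def iterD (l : List (Fin 3)) (F : MvPolynomial (Fin 3) A) : MvPolynomial (Fin 3) A :=
  l.foldr (fun k G => pderiv k G) F

lemma iterD_append_single (l : List (Fin 3)) (k : Fin 3) (F : MvPolynomial (Fin 3) A) :
    iterD (l ++ [k]) F = iterD l (pderiv k F) := by
  simp [iterD]

lemma TM_of_deriv {P : Fin 3 → ℂ} (m : ℕ) : ∀ (F : MvPolynomial (Fin 3) ℂ),
    (∀ l : List (Fin 3), l.length < m → eval P (iterD l F) = 0) → TM P m F := by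
  classical
  induction m with
  | zero => intro F _; exact TM_zero P F
  | succ m ih =>
    intro F h β hβ
    by_cases h0 : β = 0
    · subst h0
      rw [coeff_zero_shift]
      simpa [iterD] using h [] (by simp)
    · obtain ⟨k, hk⟩ : ∃ k, β k ≠ 0 := by
        by_contra hne
        push Not at hne
        exact h0 (Finsupp.ext hne)
      have h1 : TM P m (pderiv k F) := by
        refine ih _ fun l hl => ?_
        rw [← iterD_append_single]
        exact h _ (by simp; omega)
      have hle : Finsupp.single k 1 ≤ β := by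
        rw [Finsupp.single_le_iff]; omega
      obtain ⟨γ, rfl⟩ := exists_add_of_le hle
      have hγ : γ.degree < m := by
        rw [map_add, Finsupp.degree_single] at hβ; omega
      have h2 := h1 γ hγ
      rw [← pderiv_shift, coeff_pderiv] at h2
      rw [add_comm]
      rcases mul_eq_zero.mp h2 with h3 | h3
      · exact h3
      · exact absurd h3 (Nat.cast_add_one_ne_zero _)

lemma eval₂_smul_of_isHomogeneous (φ : A →+* B) {F : MvPolynomial (Fin 3) A} {n : ℕ}
    (hF : F.IsHomogeneous n) (g : B) (x : Fin 3 → B) :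
    eval₂ φ (fun k => g * x k) F = g ^ n * eval₂ φ x F := by
  classical
  rw [eval₂_eq', eval₂_eq', Finset.mul_sum]
  refine Finset.sum_congr rfl fun β hβ => ?_
  have hd : β.degree = n := by
    by_contra hne
    exact (mem_support_iff.mp hβ) (hF.coeff_eq_zero hne)
  rw [← hd, Finsupp.degree_eq_sum]
  simp_rw [mul_pow]
  rw [Finset.prod_mul_distrib, Finset.prod_pow_eq_pow_sum]
  ring

lemma iterD_isHomogeneous {F : MvPolynomial (Fin 3) A} {n : ℕ} (hF : F.IsHomogeneous n)
    (l : List (Fin 3)) : (iterD l F).IsHomogeneous (n - l.length) := by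
  induction l with
  | nil => simpa [iterD] using hF
  | cons k l ih =>
    have := ih.pderiv (i := k)
    simpa [iterD, Nat.sub_sub] using this

end Vale.Agent.P279
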