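import Vale.Agent.P279.Series
import Vale.Agent.P279.Transfer

/-! Formal theta series of level one and the cubic relation between them. -/

namespace Vale.Agent.P279

open LaurentPolynomial

/-- The exponent of `t` in front of `z ^ l`. -/
def vv (n : ℕ) (B l : ℤ) : ℤ := (n + 1) * l ^ 2 - B * l

lemma vv_lower (n : ℕ) (B l : ℤ) : l ^ 2 - B * l ≤ vv n B l := by
  unfold vv
  have : (0 : ℤ) ≤ n * l ^ 2 := by positivity
  nlinarith

lemma vv_finite (n : ℕ) (B k : ℤ) : {l | vv n B l = k}.Finite := by
  refine (Set.finite_Icc (-(|B| + |k| + 1)) (|B| + |k| + 1)).subset ?_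
  intro l hl
  have h1 := vv_lower n B l
  simp only [Set.mem_ofPred_eq] at hl
  rw [hl] at h1
  have h2 := le_abs_self B
  have h3 := neg_abs_le B
  have h4 := le_abs_self k
  have h5 := abs_nonneg B
  have h6 := abs_nonneg k
  constructor
  · by_contra h; push Not at h; nlinarith
  · by_contra h; push Not at h; nlinarith

/-- The theta series `∑ t ^ (vv l) z ^ l` over `l` congruent to `i` modulo three. -/
noncomputable def theta (n : ℕ) (B : ℤ) (i : Fin 3) : HS LP :=
  HahnSeries.ofSuppBddBelow (fun k => AddMonoidAlgebra.ofCoeff (Finsupp.ofSupportFinite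
    (fun l : ℤ => if l % 3 = (i : ℕ) ∧ vv n B l = k then (1 : ℂ) else 0)
    ((vv_finite n B k).subset (by
      intro l hl
      by_contra h
      apply hl
      simp only [Set.mem_ofPred_eq] at h
      simp [h])))) (by
    refine ⟨-B ^ 2, fun k hk => ?_⟩
    by_contra hlt
    apply hk
    ext l
    have h1 := vv_lower n B l
    have h2 : vv n B l ≠ k := by
      intro h
      rw [h] at h1
      nlinarith [sq_nonneg (l - B), sq_nonneg l]
    simp [Finsupp.ofSupportFinite_coe, h2])

lemma cf_theta (n : ℕ) (B : ℤ) (i : Fin 3) (k l : ℤ) :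
    cf (theta n B i) k l = if l % 3 = (i : ℕ) ∧ vv n B l = k then 1 else 0 := by
  rfl

lemma level_theta (n : ℕ) (B : ℤ) (i : Fin 3) :
    Level (6 * (n + 1)) (3 * B - 9 * (n + 1)) 1 (theta n B i) := by
  intro k l
  rw [cf_theta, cf_theta]
  have h1 : (l + 3 * ((1 : ℕ) : ℤ)) % 3 = l % 3 := by omega
  have h2 : vv n B (l + 3 * ((1 : ℕ) : ℤ)) =
      vv n B l + 6 * (n + 1) * l - (3 * B - 9 * (n + 1)) * ((1 : ℕ) : ℤ) := by
    unfold vv; push_cast; ring
  rw [h1, h2]
  congr 1
  apply propext
  constructor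
  · rintro ⟨h3, h4⟩; exact ⟨h3, by linarith⟩
  · rintro ⟨h3, h4⟩; exact ⟨h3, by linarith⟩

/-- The monomial `t ^ k z ^ l`. -/
noncomputable def mono (k l : ℤ) : HS LP := HahnSeries.single k (T l)

lemma cf_mono (k l k' l' : ℤ) : cf (mono k l) k' l' = if k' = k ∧ l' = l then 1 else 0 := by
  classical
  unfold cf mono
  rw [HahnSeries.coeff_single]
  by_cases h1 : k' = k
  · by_cases h2 : l' = l
    · simp [h1, h2]
    · simp [h1, h2, Ne.symm h2]
  · simp [h1]

lemma mono_mul (k l k' l' : ℤ) : mono k l * mono k' l' = mono (k + k') (l + l') := by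
  unfold mono
  rw [HahnSeries.single_mul_single, T_add]

lemma mono_pow (k l : ℤ) (m : ℕ) : mono k l ^ m = mono (m * k) (m * l) := by
  unfold mono
  rw [HahnSeries.single_pow, T_pow]
  simp

lemma cf_iota_mul_mono (x : HS ℂ) (k l k' l' : ℤ) :
    cf (iota x * mono k l) k' l' = if l' = l then x.coeff (k' - k) else 0 := by
  unfold cf mono
  rw [HahnSeries.coeff_mul_single]
  simp only [iota, hmap_coeff, ← single_eq_C_mul_T, AddMonoidAlgebra.coeff_single,
    Finsupp.single_apply]
  by_cases h : l' = l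
  · simp [h]
  · simp [h, Ne.symm h]

/-- No monomial of `W` is divisible by the product of the three variables. -/
def Std {A : Type} [CommRing A] (W : MvPolynomial (Fin 3) A) : Prop :=
  ∀ α : Fin 3 →₀ ℕ, (∀ j, α j ≠ 0) → MvPolynomial.coeff α W = 0

lemma vv_gap (n : ℕ) (B p l : ℤ) :
    vv n B l - (vv n B (p + 1) - vv n B p) * l - (vv n B p - (vv n B (p + 1) - vv n B p) * p) =
      (n + 1) * ((l - p) * (l - p - 1)) := by
  unfold vv; ring

lemma gap_nonneg (x : ℤ) : 0 ≤ x * (x - 1) := by
  rcases le_or_gt x 0 with h | h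
  · nlinarith
  · nlinarith

lemma gap_pos (x : ℤ) (h0 : x ≠ 0) (h1 : x ≠ 1) : 1 ≤ x * (x - 1) := by
  rcases le_or_gt x 0 with h | h
  · have : x ≤ -1 := by omega
    nlinarith
  · have : 2 ≤ x := by omega
    nlinarith

theorem std_eq_zero (n : ℕ) (B : ℤ) {e : ℕ} {S : MvPolynomial (Fin 3) (HS ℂ)}
    (hS : S.IsHomogeneous e) (hstd : Std S)
    (h0 : MvPolynomial.eval₂ iota (theta n B) S = 0) : S = 0 := by
  classical
  by_contra hne
  obtain ⟨α₀, hα₀, hmin⟩ := Finset.exists_min_image S.support
    (fun α => (MvPolynomial.coeff α S).order) (MvPolynomial.support_nonempty.mpr hne)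
  set ν := (MvPolynomial.coeff α₀ S).order with hν
  have hlow : ∀ α ∈ S.support, ∀ k < ν, (MvPolynomial.coeff α S).coeff k = 0 :=
    fun α hα k hk => HahnSeries.coeff_eq_zero_of_lt_order (hk.trans_le (hmin α hα))
  obtain ⟨j, hj⟩ : ∃ j, α₀ j = 0 := by
    by_contra h
    push Not at h
    exact (MvPolynomial.mem_support_iff.mp hα₀) (hstd α₀ h)
  have hdeg : ∀ α ∈ S.support, α 0 + α 1 + α 2 = e := by
    intro α hα
    have hd : α.degree = e := by
      by_contra hne
      exact (MvPolynomial.mem_support_iff.mp hα) (hS.coeff_eq_zero hne)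
    rw [← hd, Finsupp.degree_eq_sum, Fin.sum_univ_three]
  set p : ℤ := (j : ℕ) + 1 with hp
  set L : Fin 3 → ℤ := fun i => p + (((i : ℕ) : ℤ) - p) % 3 with hL
  set w : ℤ := vv n B (p + 1) - vv n B p with hw
  set a : ℤ := vv n B p - w * p with ha
  set ini : Fin 3 → HS LP := fun i => if i = j then 0 else mono (vv n B (L i)) (L i) with hini
  have hgap : ∀ l, vv n B l - w * l = a + (n + 1) * ((l - p) * (l - p - 1)) := by
    intro l
    have := vv_gap n B p l
    rw [← hw, ← ha] at this
    linarith
  have hn : (1 : ℤ) ≤ n + 1 := by omega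
  have hLi : ∀ i, i ≠ j → L i = p ∨ L i = p + 1 := by
    intro i hi
    have h1 : (i : ℕ) ≠ j := fun h => hi (Fin.ext h)
    have h2 := i.2
    have h3 := j.2
    simp only [hL]
    omega
  have hLw : ∀ i, i ≠ j → vv n B (L i) - w * L i = a := by
    intro i hi
    rw [hgap]
    rcases hLi i hi with h | h <;> rw [h] <;> ring
  have hnear : ∀ i, Near w a (theta n B i) (ini i) := by
    intro i
    refine ⟨?_, ?_, ?_⟩
    · intro k l h
      rw [cf_theta] at h
      have h1 : vv n B l = k := by
        by_contra h2; simp [h2] at h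
      rw [← h1, hgap]
      have := gap_nonneg (l - p)
      nlinarith
    · by_cases hi : i = j
      · simp only [hini, if_pos hi]; exact Bd.zero _
      · simp only [hini, if_neg hi]
        intro k l h
        rw [cf_mono] at h
        have h1 : k = vv n B (L i) ∧ l = L i := by
          by_contra h2; simp [h2] at h
        rw [h1.1, h1.2, hLw i hi]
    · intro k l h
      rw [cf_sub, cf_theta] at h
      have key : vv n B l = k ∧ l - p ≠ 0 ∧ l - p ≠ 1 := by
        have h2 := i.2
        have h3 := j.2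
        by_cases hi : i = j
        · simp only [hini, if_pos hi, cf_zero, sub_zero] at h
          have h1 : l % 3 = (i : ℕ) ∧ vv n B l = k := by
            by_contra h2; simp [h2] at h
          subst hi
          refine ⟨h1.2, ?_, ?_⟩ <;> omega
        · simp only [hini, if_neg hi, cf_mono] at h
          by_cases h4 : k = vv n B (L i) ∧ l = L i
          · exfalso
            apply h
            have h5 : l % 3 = (i : ℕ) := by
              rw [h4.2]; simp only [hL]; omega
            rw [if_pos ⟨h5, by rw [h4.1, h4.2]⟩, if_pos h4, sub_self]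
          · rw [if_neg h4, sub_zero] at h
            have h1 : l % 3 = (i : ℕ) ∧ vv n B l = k := by
              by_contra h2; simp [h2] at h
            have h6 : l ≠ L i := by
              intro h7; apply h4; rw [← h7]; exact ⟨h1.2.symm, rfl⟩
            simp only [hL] at h6
            refine ⟨h1.2, ?_, ?_⟩ <;> omega
      rw [← key.1, hgap]
      have := gap_pos (l - p) key.2.1 key.2.2
      nlinarith
  have hbd : Bd w (ν + e * a + 1)
      (MvPolynomial.eval₂ iota (theta n B) S - MvPolynomial.eval₂ iota ini S) := by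
    rw [MvPolynomial.eval₂_eq', MvPolynomial.eval₂_eq', ← Finset.sum_sub_distrib]
    refine Bd.sum _ _ fun α hα => ?_
    have h1 := (Near.refl (Bd.iota (w := w) (hlow α hα))).mul
      ((((hnear 0).pow (α 0)).mul ((hnear 1).pow (α 1))).mul ((hnear 2).pow (α 2)))
    rw [Fin.prod_univ_three, Fin.prod_univ_three]
    have h2 : (e : ℤ) * a = α 0 * a + α 1 * a + α 2 * a := by
      rw [← hdeg α hα]; push_cast; ring
    rw [h2]
    exact h1.2.2
  have hprod : ∀ α : Fin 3 →₀ ℕ, α j = 0 → ∏ i, ini i ^ α i =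
      mono (∑ i, α i * vv n B (L i)) (∑ i, α i * L i) := by
    intro α hα
    have h1 : ∀ i, ini i ^ α i = mono (α i * vv n B (L i)) (α i * L i) := by
      intro i
      rw [← mono_pow]
      by_cases hi : i = j
      · rw [hi, hα, pow_zero, pow_zero]
      · simp only [hini, if_neg hi]
    simp only [Fin.prod_univ_three, Fin.sum_univ_three, h1, mono_mul]
  have hcf : cf (MvPolynomial.eval₂ iota ini S) (ν + ∑ i, α₀ i * vv n B (L i))
      (∑ i, α₀ i * L i) = (MvPolynomial.coeff α₀ S).coeff ν := by
    rw [MvPolynomial.eval₂_eq', cf_sum, Finset.sum_eq_single α₀]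
    · rw [hprod α₀ hj, cf_iota_mul_mono, if_pos rfl]
      congr 1; ring
    · intro α hα hne
      by_cases hαj : α j = 0
      · rw [hprod α hαj, cf_iota_mul_mono, if_neg]
        intro heq
        apply hne
        have h1 := hdeg α hα
        have h2 := hdeg α₀ hα₀
        simp only [Fin.sum_univ_three, hL, hp] at heq
        ext i
        fin_cases j <;> fin_cases i <;> simp at heq hj hαj ⊢ <;> omega
      · have : ∏ i, ini i ^ α i = 0 :=
          Finset.prod_eq_zero (Finset.mem_univ j) (by simp [hini, hαj])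
        rw [this, mul_zero, cf_zero]
    · intro h; exact absurd hα₀ h
  have hw0 : (ν + ∑ i, α₀ i * vv n B (L i)) - w * (∑ i, α₀ i * L i) = ν + e * a := by
    have h1 : ∀ i, (α₀ i : ℤ) * vv n B (L i) - w * (α₀ i * L i) = α₀ i * a := by
      intro i
      by_cases hi : i = j
      · rw [hi, hj]; simp
      · rw [← hLw i hi]; ring
    have h2 := h1 0
    have h3 := h1 1
    have h4 := h1 2
    rw [← hdeg α₀ hα₀]
    simp only [Fin.sum_univ_three]
    push_cast
    linarith
  have hfin := hbd (ν + ∑ i, α₀ i * vv n B (L i)) (∑ i, α₀ i * L i) (by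
    rw [cf_sub, h0, cf_zero, hcf, zero_sub, neg_ne_zero, hν]
    rw [Ne, HahnSeries.coeff_order_eq_zero]
    exact MvPolynomial.mem_support_iff.mp hα₀)
  rw [hw0] at hfin
  omega

lemma card_mon_three : Fintype.card (Mon 3) = 10 := by
  classical
  rw [Fintype.card_of_subtype (Finset.finsuppAntidiag Finset.univ 3)]
  · rw [Finset.card_finsuppAntidiag_nat_eq_choose]; rfl
  · intro x
    simp [Finset.mem_finsuppAntidiag, Finsupp.degree_eq_sum]

theorem exists_cubic (n : ℕ) (B : ℤ) : ∃ c : MvPolynomial (Fin 3) (HS ℂ), c ≠ 0 ∧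
    c.IsHomogeneous 3 ∧ MvPolynomial.eval₂ iota (theta n B) c = 0 := by
  classical
  let M : Matrix (Fin 9) (Mon 3) (HS ℂ) :=
    Matrix.of fun l α => col (l : ℕ) (∏ i, theta n B i ^ α.1 i)
  have hker : LinearMap.ker M.mulVecLin ≠ ⊥ := by
    apply LinearMap.ker_ne_bot_of_finrank_lt
    simp [card_mon_three]
  obtain ⟨x, hx, hx0⟩ := Submodule.exists_mem_ne_zero_of_ne_bot hker
  refine ⟨∑ α : Mon 3, MvPolynomial.monomial α.1 (x α), ?_, isHomogeneous_sum_mon x, ?_⟩
  · intro h
    apply hx0
    funext α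
    rw [← coeff_sum_mon x α, h]; simp
  · refine (Level.eval₂ (level_theta n B) (isHomogeneous_sum_mon x)).eq_zero (by norm_num) ?_
    intro l h0 h1 k
    obtain ⟨l', rfl⟩ := Int.eq_ofNat_of_zero_le h0
    have h2 : l' < 9 := by push_cast at h1; omega
    have h3 := congrFun (LinearMap.mem_ker.mp hx) ⟨l', h2⟩
    rw [← col_coeff, MvPolynomial.eval₂_sum, col_sum]
    simp only [MvPolynomial.eval₂_monomial, col_iota_mul]
    simp only [Matrix.mulVecLin_apply, Matrix.mulVec, dotProduct, M, Matrix.of_apply,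
      Pi.zero_apply] at h3
    have h4 : ∑ α : Mon 3, x α * col l' (α.1.prod fun i k => theta n B i ^ k) = 0 := by
      rw [← h3]
      refine Finset.sum_congr rfl fun α _ => ?_
      rw [mul_comm, Finsupp.prod_fintype _ _ (by simp)]
    rw [h4]; simp

end Vale.Agent.P279
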